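import Vale.Agent.H53.Kurosh.Solvable
import Vale.Agent.H53.EA.Defs

/-!
# Kurosh's problem for division rings: elementary amenable groups of units
-/

namespace Vale.Agent.H53.Kurosh

universe u v

open scoped commutatorElement

variable {F : Type v} {D : Type u} [Field F] [DivisionRing D] [Algebra F D]

/-- `TorsFin Q`: whenever a finitely generated group `Γ` maps to `Q`, every normal subgroup of
`Γ` containing the kernel and with torsion quotient has finite index. -/
def TorsFin (Q : Type u) [Group Q] : Prop :=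
  ∀ (Γ : Type u) [Group Γ] [Group.FG Γ] (α : Γ →* Q) (H : Subgroup Γ) [H.Normal],
    α.ker ≤ H → (∀ x : Γ, ∃ k : ℕ, 0 < k ∧ x ^ k ∈ H) → H.FiniteIndex

lemma finite_of_fg_torsion_comm (Q : Type u) [Group Q] [Group.FG Q]
    (hcomm : ∀ a b : Q, a * b = b * a) (htors : ∀ q : Q, ∃ k : ℕ, 0 < k ∧ q ^ k = 1) :
    Finite Q := by
  let _ : CommGroup Q := { (inferInstance : Group Q) with mul_comm := hcomm }
  apply CommGroup.finite_of_fg_isMulTorsion
  intro x
  rw [isOfFinOrder_iff_pow_eq_one]
  exact htors x

lemma range_comp_subtype {Γ G : Type u} [Group Γ] [Group G] (ρ : Γ →* G) (K : Subgroup Γ) :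
    (ρ.comp K.subtype).range = K.map ρ := by
  ext x
  constructor
  · rintro ⟨y, rfl⟩
    exact ⟨y, y.2, rfl⟩
  · rintro ⟨y, hy, rfl⟩
    exact ⟨⟨y, hy⟩, rfl⟩

/-! ### Injective maps -/

lemma Good.of_injective {G H : Type u} [Group G] [Group H] (f : G →* H)
    (hf : Function.Injective f) (hH : Good F D H) : Good F D G := by
  intro Γ _ _ α ρ hker
  refine hH Γ (f.comp α) ρ (fun x hx y => hker x ?_ y)
  rw [MonoidHom.mem_ker] at hx ⊢
  apply hf
  rw [map_one]
  exact hx

lemma TorsFin.of_injective {G H : Type u} [Group G] [Group H] (f : G →* H)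
    (hf : Function.Injective f) (hH : TorsFin H) : TorsFin G := by
  intro Γ _ _ α K _ hle htors
  refine hH Γ (f.comp α) K (fun x hx => hle ?_) htors
  rw [MonoidHom.mem_ker] at hx ⊢
  apply hf
  rw [map_one]
  exact hx

/-! ### Surjective maps -/

lemma exists_lift {Γ G H : Type u} [Group Γ] [Group G] [Group H] [hfg : Group.FG Γ]
    (α : Γ →* H) (f : G →* H) (hf : Function.Surjective f) :
    ∃ P : Subgroup (Γ × G), P.FG ∧ P.map (MonoidHom.fst Γ G) = ⊤ ∧ ∀ p ∈ P, f p.2 = α p.1 := by
  classical
  obtain ⟨S, hS⟩ := Group.fg_def.mp hfg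
  choose g hg using fun s : Γ => hf (α s)
  refine ⟨Subgroup.closure ((S.image (fun s => (s, g s)) : Finset (Γ × G)) : Set (Γ × G)),
    ⟨_, rfl⟩, ?_, ?_⟩
  · rw [MonoidHom.map_closure, Finset.coe_image, ← Set.image_comp]
    have : (MonoidHom.fst Γ G) ∘ (fun s => (s, g s)) = id := by
      funext s; rfl
    rw [this, Set.image_id, hS]
  · intro p hp
    induction hp using Subgroup.closure_induction with
    | mem x hx =>
      rw [Finset.mem_coe, Finset.mem_image] at hx
      obtain ⟨s, _, rfl⟩ := hx
      exact hg s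
    | one => simp
    | mul x y _ _ hx hy => simp [hx, hy]
    | inv x _ hx => simp [hx]

lemma Good.of_surjective {G H : Type u} [Group G] [Group H] (f : G →* H)
    (hf : Function.Surjective f) (hG : Good F D G) : Good F D H := by
  intro Γ _ _ α ρ hker
  obtain ⟨P, hPfg, hPtop, hP⟩ := exists_lift α f hf
  have hfg : Group.FG P := (Group.fg_iff_subgroup_fg P).mpr hPfg
  have h1 := hG P ((MonoidHom.snd Γ G).comp P.subtype)
    (ρ.comp ((MonoidHom.fst Γ G).comp P.subtype)) (by
      intro x hx y
      rw [MonoidHom.mem_ker] at hx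
      have hx' : (x : Γ × G).2 = 1 := hx
      have h2 := hP x x.2
      rw [hx', map_one] at h2
      exact hker _ (MonoidHom.mem_ker.mpr h2.symm) _)
  unfold FDrep at h1 ⊢
  have h3 : (ρ.comp ((MonoidHom.fst Γ G).comp P.subtype)).range = ρ.range := by
    rw [← MonoidHom.comp_assoc, range_comp_subtype, ← Subgroup.map_map, hPtop,
      MonoidHom.range_eq_map]
  rwa [h3] at h1

lemma TorsFin.of_surjective {G H : Type u} [Group G] [Group H] (f : G →* H)
    (hf : Function.Surjective f) (hG : TorsFin G) : TorsFin H := by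
  intro Γ _ _ α K _ hle htors
  obtain ⟨P, hPfg, hPtop, hP⟩ := exists_lift α f hf
  have hfg : Group.FG P := (Group.fg_iff_subgroup_fg P).mpr hPfg
  have hsurj : Function.Surjective ((MonoidHom.fst Γ G).comp P.subtype) := by
    rw [← MonoidHom.range_eq_top, range_comp_subtype, hPtop]
  have h1 := hG P ((MonoidHom.snd Γ G).comp P.subtype)
    (K.comap ((MonoidHom.fst Γ G).comp P.subtype)) (by
      intro x hx
      rw [MonoidHom.mem_ker] at hx
      have hx' : (x : Γ × G).2 = 1 := hx
      have h2 := hP x x.2
      rw [hx', map_one] at h2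
      rw [Subgroup.mem_comap]
      exact hle (MonoidHom.mem_ker.mpr h2.symm)) (by
      intro x
      obtain ⟨k, hk, hx⟩ := htors (((MonoidHom.fst Γ G).comp P.subtype) x)
      refine ⟨k, hk, ?_⟩
      rw [Subgroup.mem_comap, map_pow]
      exact hx)
  constructor
  rw [← Subgroup.index_comap_of_surjective K hsurj]
  exact h1.index_ne_zero

/-! ### Finite groups -/

variable [Algebra.IsAlgebraic F D]

theorem good_of_finite (Q : Type u) [Group Q] [Finite Q] : Good F D Q := by
  intro Γ _ hfg α ρ hker
  have hfi : α.ker.FiniteIndex := inferInstance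
  have hKfg : Group.FG α.ker := Subgroup.fg_of_index_ne_zero _
  obtain ⟨S, hS⟩ := (Group.fg_iff_subgroup_fg _).mp hKfg
  have hSker : ∀ s ∈ S, s ∈ α.ker := by
    intro s hs
    rw [← hS]
    exact Subgroup.subset_closure hs
  have h1 := FD_closure_image_of_comm (F := F) ρ S (fun s hs t ht y => hker _ (by
    have hs' := MonoidHom.mem_ker.mp (hSker s hs)
    have ht' := MonoidHom.mem_ker.mp (hSker t ht)
    rw [MonoidHom.mem_ker, map_commutatorElement, hs', ht']
    simp) y)
  have h2 : (α.ker).map ρ = Subgroup.closure (ρ '' (S : Set Γ)) := by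
    rw [← MonoidHom.map_closure, hS]
  apply FDrep_of_finiteIndex ρ α.ker
  rw [h2]
  exact h1

omit [Algebra.IsAlgebraic F D] in
theorem torsFin_of_finite (Q : Type u) [Group Q] [Finite Q] : TorsFin Q := by
  intro Γ _ _ α H _ hle _
  exact Subgroup.finiteIndex_of_le hle

/-! ### Abelian groups -/

omit [Algebra.IsAlgebraic F D] in
theorem torsFin_of_comm (Q : Type u) [Group Q] (hQ : ∀ a b : Q, a * b = b * a) : TorsFin Q := by
  intro Γ _ _ α H _ hle htors
  have : Finite (Γ ⧸ H) := by
    apply finite_of_fg_torsion_comm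
    · intro a b
      induction a using QuotientGroup.induction_on with
      | H x =>
        induction b using QuotientGroup.induction_on with
        | H y =>
          rw [← QuotientGroup.mk_mul, ← QuotientGroup.mk_mul, QuotientGroup.eq]
          apply hle
          rw [MonoidHom.mem_ker]
          simp only [map_mul, map_inv]
          rw [hQ (α y) (α x)]
          simp
    · intro q
      induction q using QuotientGroup.induction_on with
      | H x =>
        obtain ⟨k, hk, hx⟩ := htors x
        refine ⟨k, hk, ?_⟩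
        rw [← QuotientGroup.mk_pow]
        exact (QuotientGroup.eq_one_iff _).mpr hx
  exact Subgroup.finiteIndex_of_finite_quotient

/-! ### Directed unions -/

omit [Algebra.IsAlgebraic F D] in
lemma exists_index_of_fg {G Γ : Type u} [Group G] [Group Γ] [hfg : Group.FG Γ] (α : Γ →* G)
    {ι : Type u} [Nonempty ι] (H : ι → Subgroup G) (hdir : Directed (· ≤ ·) H)
    (hcover : ∀ g : G, ∃ i, g ∈ H i) : ∃ i, ∀ x : Γ, α x ∈ H i := by
  classical
  obtain ⟨S, hS⟩ := Group.fg_def.mp hfg
  choose i hi using fun s : Γ => hcover (α s)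
  obtain ⟨z, hz⟩ := hdir.finset_le (S.image i)
  refine ⟨z, fun x => ?_⟩
  have h1 : Subgroup.closure (S : Set Γ) ≤ (H z).comap α := by
    rw [Subgroup.closure_le]
    intro s hs
    rw [SetLike.mem_coe, Subgroup.mem_comap]
    exact hz (i s) (Finset.mem_image_of_mem i hs) (hi s)
  rw [hS] at h1
  exact h1 (Subgroup.mem_top x)

omit [Algebra.IsAlgebraic F D] in
theorem good_of_directed_union (G : Type u) [Group G] (ι : Type u) [Nonempty ι]
    (H : ι → Subgroup G) (hdir : Directed (· ≤ ·) H) (hcover : ∀ g : G, ∃ i, g ∈ H i)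
    (ih : ∀ i, Good F D (H i)) : Good F D G := by
  intro Γ _ _ α ρ hker
  obtain ⟨i, hi⟩ := exists_index_of_fg α H hdir hcover
  refine ih i Γ (α.codRestrict (H i) hi) ρ (fun x hx y => hker x ?_ y)
  rw [MonoidHom.mem_ker] at hx ⊢
  exact congrArg Subtype.val hx

omit [Algebra.IsAlgebraic F D] in
theorem torsFin_of_directed_union (G : Type u) [Group G] (ι : Type u) [Nonempty ι]
    (H : ι → Subgroup G) (hdir : Directed (· ≤ ·) H) (hcover : ∀ g : G, ∃ i, g ∈ H i)
    (ih : ∀ i, TorsFin (H i)) : TorsFin G := by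
  intro Γ _ _ α K _ hle htors
  obtain ⟨i, hi⟩ := exists_index_of_fg α H hdir hcover
  refine ih i Γ (α.codRestrict (H i) hi) K (fun x hx => hle ?_) htors
  rw [MonoidHom.mem_ker] at hx ⊢
  exact congrArg Subtype.val hx

/-! ### Extensions -/

theorem good_of_extension (G : Type u) [Group G] (N : Subgroup G) [N.Normal]
    (hN : Good F D N) (hQ : Good F D (G ⧸ N)) (hQt : TorsFin (G ⧸ N)) : Good F D G := by
  intro Γ _ _ α ρ hker
  have hNn : (N.comap α).Normal := inferInstance
  refine core_step ρ (N.comap α) ?_ ?_ ?_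
  · intro S hS
    have hfg : Group.FG (Subgroup.closure (S : Set Γ)) := Group.closure_finset_fg S
    have hle : Subgroup.closure (S : Set Γ) ≤ N.comap α := (Subgroup.closure_le _).mpr hS
    have h1 := hN (Subgroup.closure (S : Set Γ))
      ((α.comp (Subgroup.closure (S : Set Γ)).subtype).codRestrict N (fun x => hle x.2))
      (ρ.comp (Subgroup.closure (S : Set Γ)).subtype) (by
        intro x hx y
        apply hker
        rw [MonoidHom.mem_ker] at hx ⊢
        exact congrArg Subtype.val hx)
    unfold FDrep at h1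
    rwa [range_comp_subtype, MonoidHom.map_closure] at h1
  · intro H _ hNH htors
    refine hQt Γ ((QuotientGroup.mk' N).comp α) H ?_ htors
    intro x hx
    apply hNH
    rw [MonoidHom.mem_ker] at hx
    exact Subgroup.mem_comap.mpr ((QuotientGroup.eq_one_iff _).mp hx)
  · intro Γ' _ _ α' ρ' hker'
    have hinj : Function.Injective (QuotientGroup.map (N.comap α) N α (le_refl _)) := by
      rw [injective_iff_map_eq_one]
      intro q hq
      induction q using QuotientGroup.induction_on with
      | H x =>
        rw [QuotientGroup.map_mk] at hq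
        have h2 : α x ∈ N := (QuotientGroup.eq_one_iff _).mp hq
        exact (QuotientGroup.eq_one_iff _).mpr (Subgroup.mem_comap.mpr h2)
    refine hQ Γ' ((QuotientGroup.map (N.comap α) N α (le_refl _)).comp α') ρ' ?_
    intro x hx y
    apply hker' x _ y
    rw [MonoidHom.mem_ker] at hx ⊢
    apply hinj
    rw [map_one]
    exact hx

omit [Algebra.IsAlgebraic F D] in
theorem torsFin_of_extension (G : Type u) [Group G] (N : Subgroup G) [N.Normal]
    (hN : TorsFin N) (hQ : TorsFin (G ⧸ N)) : TorsFin G := by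
  classical
  intro Γ _ _ α H _ hle htors
  have hNn : (N.comap α).Normal := inferInstance
  have h1 : (H ⊔ N.comap α).FiniteIndex := by
    refine hQ Γ ((QuotientGroup.mk' N).comp α) (H ⊔ N.comap α) ?_ ?_
    · intro x hx
      rw [MonoidHom.mem_ker] at hx
      exact Subgroup.mem_sup_right (Subgroup.mem_comap.mpr ((QuotientGroup.eq_one_iff _).mp hx))
    · intro x
      obtain ⟨k, hk, h⟩ := htors x
      exact ⟨k, hk, Subgroup.mem_sup_left h⟩
  have h1fg : (H ⊔ N.comap α).FG :=
    (Group.fg_iff_subgroup_fg _).mp (Subgroup.fg_of_index_ne_zero _)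
  obtain ⟨S₁, hS₁⟩ := h1fg
  have hdec : ∀ s : Γ, ∃ n : Γ, n ∈ N.comap α ∧ (s ∈ S₁ → s * n⁻¹ ∈ H) := by
    intro s
    by_cases hs : s ∈ S₁
    · have h2 : s ∈ H ⊔ N.comap α := by
        rw [← hS₁]
        exact Subgroup.subset_closure hs
      rw [← SetLike.mem_coe, Subgroup.mul_normal, Set.mem_mul] at h2
      obtain ⟨h, hh, n, hn, rfl⟩ := h2
      exact ⟨n, hn, fun _ => by simpa using hh⟩
    · exact ⟨1, one_mem _, fun h => absurd h hs⟩
  choose n hn hn' using hdec
  have hN₁le : Subgroup.closure ((S₁.image n : Finset Γ) : Set Γ) ≤ N.comap α := by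
    rw [Subgroup.closure_le]
    intro x hx
    rw [Finset.mem_coe, Finset.mem_image] at hx
    obtain ⟨s, _, rfl⟩ := hx
    exact hn s
  have hfg : Group.FG (Subgroup.closure ((S₁.image n : Finset Γ) : Set Γ)) :=
    Group.closure_finset_fg _
  have h2 : (H.subgroupOf (Subgroup.closure ((S₁.image n : Finset Γ) : Set Γ))).FiniteIndex := by
    refine hN (Subgroup.closure ((S₁.image n : Finset Γ) : Set Γ))
      ((α.comp (Subgroup.closure ((S₁.image n : Finset Γ) : Set Γ)).subtype).codRestrict N
        (fun x => hN₁le x.2)) (H.subgroupOf (Subgroup.closure ((S₁.image n : Finset Γ) : Set Γ)))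
      ?_ ?_
    · intro x hx
      rw [MonoidHom.mem_ker] at hx
      rw [Subgroup.mem_subgroupOf]
      apply hle
      rw [MonoidHom.mem_ker]
      exact congrArg Subtype.val hx
    · intro x
      obtain ⟨k, hk, h⟩ := htors (x : Γ)
      refine ⟨k, hk, ?_⟩
      rw [Subgroup.mem_subgroupOf]
      simpa using h
  have h3 : H ⊔ N.comap α ≤ H ⊔ Subgroup.closure ((S₁.image n : Finset Γ) : Set Γ) := by
    rw [← hS₁, Subgroup.closure_le]
    intro s hs
    have h4 : s = (s * (n s)⁻¹) * n s := by group
    rw [SetLike.mem_coe, h4]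
    refine mul_mem (Subgroup.mem_sup_left (hn' s hs)) (Subgroup.mem_sup_right
      (Subgroup.subset_closure ?_))
    rw [Finset.mem_coe]
    exact Finset.mem_image_of_mem n hs
  have h4 : (H ⊔ Subgroup.closure ((S₁.image n : Finset Γ) : Set Γ)).FiniteIndex :=
    Subgroup.finiteIndex_of_le h3
  constructor
  rw [← Subgroup.relIndex_mul_index
    (le_sup_left : H ≤ H ⊔ Subgroup.closure ((S₁.image n : Finset Γ) : Set Γ)),
    Subgroup.relIndex_sup_left]
  exact mul_ne_zero h2.index_ne_zero h4.index_ne_zero

/-! ### The main induction -/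

theorem good_and_torsFin_of_isElementaryAmenable (Q : Type u) [Group Q]
    (hQ : IsElementaryAmenable Q) : Good F D Q ∧ TorsFin Q := by
  induction hQ with
  | of_finite G => exact ⟨good_of_finite G, torsFin_of_finite G⟩
  | of_comm G h => exact ⟨good_of_comm G h, torsFin_of_comm G h⟩
  | of_injective f hf _ ih => exact ⟨ih.1.of_injective f hf, ih.2.of_injective f hf⟩
  | of_surjective f hf _ ih => exact ⟨ih.1.of_surjective f hf, ih.2.of_surjective f hf⟩
  | of_extension G N _ _ ih1 ih2 =>
    exact ⟨good_of_extension G N ih1.1 ih2.1 ih2.2, torsFin_of_extension G N ih1.2 ih2.2⟩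
  | of_directed_union G ι H hdir hcover _ ih =>
    exact ⟨good_of_directed_union G ι H hdir hcover (fun i => (ih i).1),
      torsFin_of_directed_union G ι H hdir hcover (fun i => (ih i).2)⟩

/-- **Kurosh's problem for elementary amenable groups of units.** If `D` is a division ring
algebraic over a central subfield `F`, then every finitely generated elementary amenable
subgroup of `Dˣ` generates a finite-dimensional `F`-subalgebra. -/
theorem FD_of_isElementaryAmenable (S : Finset Dˣ)
    (hS : IsElementaryAmenable (Subgroup.closure (S : Set Dˣ))) :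
    FD F ((Subgroup.closure (S : Set Dˣ) : Subgroup Dˣ) : Set Dˣ) := by
  have hgood : Good F D (Subgroup.closure (S : Set Dˣ)) :=
    (good_and_torsFin_of_isElementaryAmenable _ hS).1
  have h1 := hgood (Subgroup.closure (S : Set Dˣ)) (MonoidHom.id _)
    (Subgroup.closure (S : Set Dˣ)).subtype (by
      intro x hx y
      rw [MonoidHom.mem_ker, MonoidHom.id_apply] at hx
      rw [hx, map_one]
      exact Commute.one_left _)
  unfold FDrep at h1
  rwa [Subgroup.range_subtype] at h1

end Vale.Agent.H53.Kurosh
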