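import Mathlib

/-!
# Kurosh's problem for division rings: basic tools

Finite-dimensionality of subalgebras of a division ring generated by groups of units.
-/

namespace Vale.Agent.H53.Kurosh

universe u v

variable {F : Type v} {D : Type u} [Field F] [DivisionRing D] [Algebra F D]

/-- Conjugation of a ring element by a unit. -/
def cj (g : Dˣ) (x : D) : D := (g : D) * x * ((g⁻¹ : Dˣ) : D)

lemma cj_mul (g : Dˣ) (x y : D) : cj g (x * y) = cj g x * cj g y := by
  simp [cj, mul_assoc]

lemma cj_add (g : Dˣ) (x y : D) : cj g (x + y) = cj g x + cj g y := by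
  simp [cj, mul_add, add_mul]

lemma cj_one_right (g : Dˣ) : cj g (1 : D) = 1 := by simp [cj]

lemma cj_one_left (x : D) : cj (1 : Dˣ) x = x := by simp [cj]

lemma cj_algebraMap (g : Dˣ) (r : F) : cj g (algebraMap F D r) = algebraMap F D r := by
  unfold cj
  rw [← Algebra.commutes r (g : D), mul_assoc, Units.mul_inv, mul_one]

lemma cj_comp (g h : Dˣ) (x : D) : cj (g * h) x = cj g (cj h x) := by
  simp [cj, mul_assoc]

lemma cj_unit (g h : Dˣ) : cj g (h : D) = ((g * h * g⁻¹ : Dˣ) : D) := by simp [cj]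

lemma cj_mul_self (g : Dˣ) (x : D) : cj g x * (g : D) = (g : D) * x := by
  simp [cj, mul_assoc]

lemma cj_inv_cancel (g : Dˣ) (x : D) : cj g (cj g⁻¹ x) = x := by
  rw [← cj_comp, mul_inv_cancel, cj_one_left]

/-- The `F`-subalgebra of `D` generated by a set of units. -/
def alg (F : Type v) {D : Type u} [Field F] [DivisionRing D] [Algebra F D] (S : Set Dˣ) :
    Subalgebra F D :=
  Algebra.adjoin F ((fun g : Dˣ => (g : D)) '' S)

/-- The set of units generates a finite-dimensional subalgebra. -/
def FD (F : Type v) {D : Type u} [Field F] [DivisionRing D] [Algebra F D] (S : Set Dˣ) : Prop :=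
  (Subalgebra.toSubmodule (alg F S)).FG

lemma alg_mono {S T : Set Dˣ} (h : S ⊆ T) : alg F S ≤ alg F T :=
  Algebra.adjoin_mono (Set.image_mono h)

lemma mem_alg {S : Set Dˣ} {g : Dˣ} (h : g ∈ S) : (g : D) ∈ alg F S :=
  Algebra.subset_adjoin ⟨g, h, rfl⟩

lemma fg_of_le_fg {A B : Submodule F D} (hB : B.FG) (h : A ≤ B) : A.FG := by
  have : IsNoetherian F B := isNoetherian_of_fg_of_noetherian B hB
  exact Submodule.FG.of_le_of_isNoetherian h

lemma FD_mono {S T : Set Dˣ} (h : S ⊆ T) (hT : FD F T) : FD F S :=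
  fg_of_le_fg hT (alg_mono h)

/-- A finite-dimensional subalgebra of a division ring is closed under inverses. -/
lemma inv_mem_of_fg (A : Subalgebra F D) (hA : (Subalgebra.toSubmodule A).FG) {a : D}
    (ha : a ∈ A) : a⁻¹ ∈ A := by
  by_cases h0 : a = 0
  · simp [h0]
  have : Module.Finite F A := Module.Finite.iff_fg.mpr hA
  let f : A →ₗ[F] A := LinearMap.mulLeft F (⟨a, ha⟩ : A)
  have hinj : Function.Injective f := by
    intro x y hxy
    have h1 : a * (x : D) = a * (y : D) := congrArg Subtype.val hxy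
    exact Subtype.ext (mul_left_cancel₀ h0 h1)
  obtain ⟨b, hb⟩ := LinearMap.surjective_of_injective hinj (1 : A)
  have h2 : a * (b : D) = 1 := congrArg Subtype.val hb
  rw [← eq_inv_of_mul_eq_one_right h2]
  exact b.2

/-- Product of two subalgebras as a subalgebra, when `B * A ≤ A * B`. -/
lemma exists_subalgebra_mul (A B : Subalgebra F D)
    (h : Subalgebra.toSubmodule B * Subalgebra.toSubmodule A ≤
      Subalgebra.toSubmodule A * Subalgebra.toSubmodule B) :
    ∃ C : Subalgebra F D,
      Subalgebra.toSubmodule C = Subalgebra.toSubmodule A * Subalgebra.toSubmodule B := by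
  refine ⟨Submodule.toSubalgebra (Subalgebra.toSubmodule A * Subalgebra.toSubmodule B) ?_ ?_, ?_⟩
  · have := Submodule.mul_mem_mul (M := Subalgebra.toSubmodule A) (N := Subalgebra.toSubmodule B)
      (one_mem A) (one_mem B)
    simpa using this
  · intro x y hx hy
    have h1 := Submodule.mul_mem_mul hx hy
    have h2 : Subalgebra.toSubmodule A * Subalgebra.toSubmodule B *
        (Subalgebra.toSubmodule A * Subalgebra.toSubmodule B) ≤
        Subalgebra.toSubmodule A * Subalgebra.toSubmodule B := by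
      calc Subalgebra.toSubmodule A * Subalgebra.toSubmodule B *
            (Subalgebra.toSubmodule A * Subalgebra.toSubmodule B)
          = Subalgebra.toSubmodule A * (Subalgebra.toSubmodule B * Subalgebra.toSubmodule A) *
              Subalgebra.toSubmodule B := by simp only [mul_assoc]
        _ ≤ Subalgebra.toSubmodule A * (Subalgebra.toSubmodule A * Subalgebra.toSubmodule B) *
              Subalgebra.toSubmodule B := by gcongr
        _ = (Subalgebra.toSubmodule A * Subalgebra.toSubmodule A) *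
              (Subalgebra.toSubmodule B * Subalgebra.toSubmodule B) := by simp only [mul_assoc]
        _ = Subalgebra.toSubmodule A * Subalgebra.toSubmodule B := by
              rw [(Subalgebra.isIdempotentElem_toSubmodule A).eq,
                (Subalgebra.isIdempotentElem_toSubmodule B).eq]
    exact h2 h1
  · exact Submodule.toSubalgebra_toSubmodule _ _ _

lemma le_mul_left (A B : Subalgebra F D) :
    Subalgebra.toSubmodule A ≤ Subalgebra.toSubmodule A * Subalgebra.toSubmodule B := by
  intro x hx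
  have := Submodule.mul_mem_mul (M := Subalgebra.toSubmodule A) (N := Subalgebra.toSubmodule B)
    hx (one_mem B)
  simpa using this

lemma le_mul_right (A B : Subalgebra F D) :
    Subalgebra.toSubmodule B ≤ Subalgebra.toSubmodule A * Subalgebra.toSubmodule B := by
  intro x hx
  have := Submodule.mul_mem_mul (M := Subalgebra.toSubmodule A) (N := Subalgebra.toSubmodule B)
    (one_mem A) hx
  simpa using this

lemma cj_pow_mem (A : Subalgebra F D) (g : Dˣ) (h : ∀ a ∈ A, cj g a ∈ A) (n : ℕ) :
    ∀ a ∈ A, cj (g ^ n) a ∈ A := by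
  induction n with
  | zero => intro a ha; simpa [cj_one_left] using ha
  | succ n ih =>
    intro a ha
    rw [pow_succ, cj_comp]
    exact ih _ (h a ha)

/-- Adjoining to a finite-dimensional subalgebra an algebraic unit normalizing it. -/
lemma exists_fg_of_normalizing (A : Subalgebra F D) (hA : (Subalgebra.toSubmodule A).FG)
    (g : Dˣ) (hg : IsAlgebraic F (g : D)) (hnorm : ∀ a ∈ A, cj g a ∈ A) :
    ∃ C : Subalgebra F D, (Subalgebra.toSubmodule C).FG ∧ A ≤ C ∧ (g : D) ∈ C := by
  set B : Subalgebra F D := Algebra.adjoin F {(g : D)} with hB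
  have hBfg : (Subalgebra.toSubmodule B).FG := hg.isIntegral.fg_adjoin_singleton
  have hcomm : Subalgebra.toSubmodule B * Subalgebra.toSubmodule A ≤
      Subalgebra.toSubmodule A * Subalgebra.toSubmodule B := by
    rw [Submodule.mul_le]
    intro b hb a ha
    have hb' : b ∈ Submodule.span F (Submonoid.closure {(g : D)} : Set D) := by
      rw [← Algebra.adjoin_eq_span]; exact hb
    clear hb
    induction hb' using Submodule.span_induction with
    | mem x hx =>
      rw [SetLike.mem_coe, Submonoid.mem_closure_singleton] at hx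
      obtain ⟨n, rfl⟩ := hx
      have h1 : (g : D) ^ n * a = cj (g ^ n) a * ((g ^ n : Dˣ) : D) := by
        rw [cj_mul_self]; simp
      rw [h1]
      refine Submodule.mul_mem_mul (cj_pow_mem A g hnorm n a ha) ?_
      rw [Units.val_pow_eq_pow_val]
      exact pow_mem (Algebra.subset_adjoin (Set.mem_singleton _)) n
    | zero => simp
    | add x y _ _ hx hy => rw [add_mul]; exact add_mem hx hy
    | smul r x _ hx => rw [smul_mul_assoc]; exact Submodule.smul_mem _ r hx
  obtain ⟨C, hC⟩ := exists_subalgebra_mul A B hcomm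
  refine ⟨C, ?_, ?_, ?_⟩
  · rw [hC]; exact hA.mul hBfg
  · intro x hx
    have : x ∈ Subalgebra.toSubmodule C := by rw [hC]; exact le_mul_left A B hx
    exact this
  · have : (g : D) ∈ Subalgebra.toSubmodule C := by
      rw [hC]; exact le_mul_right A B (Algebra.subset_adjoin (Set.mem_singleton _))
    exact this


/-- The group of units of `D` lying in a subalgebra closed under inverses. -/
def unitsIn (C : Subalgebra F D) (hC : ∀ a ∈ C, a⁻¹ ∈ C) : Subgroup Dˣ where
  carrier := {g | (g : D) ∈ C}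
  mul_mem' := fun {a b} ha hb => by
    have ha' : (a : D) ∈ C := ha
    have hb' : (b : D) ∈ C := hb
    have := mul_mem ha' hb'
    simpa using this
  one_mem' := by
    simp
  inv_mem' := fun {g} hg => by
    have hg' : (g : D) ∈ C := hg
    have := hC _ hg'
    simpa using this

lemma mem_unitsIn (C : Subalgebra F D) (hC : ∀ a ∈ C, a⁻¹ ∈ C) (g : Dˣ) :
    g ∈ unitsIn C hC ↔ (g : D) ∈ C := Iff.rfl

lemma alg_le_of_le_unitsIn (C : Subalgebra F D) (hC : ∀ a ∈ C, a⁻¹ ∈ C) (K : Subgroup Dˣ)
    (h : K ≤ unitsIn C hC) : alg F (K : Set Dˣ) ≤ C :=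
  Algebra.adjoin_le (by rintro _ ⟨g, hg, rfl⟩; exact h hg)

lemma cj_mem_alg (K : Subgroup Dˣ) (x : Dˣ) (hx : ∀ k ∈ K, x * k * x⁻¹ ∈ K) :
    ∀ a ∈ alg F (K : Set Dˣ), cj x a ∈ alg F (K : Set Dˣ) := by
  intro a ha
  induction ha using Algebra.adjoin_induction with
  | mem y hy =>
    obtain ⟨k, hk, rfl⟩ := hy
    rw [cj_unit]
    exact mem_alg (hx k hk)
  | algebraMap r => rw [cj_algebraMap]; exact Subalgebra.algebraMap_mem _ r
  | add y z _ _ hy hz => rw [cj_add]; exact add_mem hy hz
  | mul y z _ _ hy hz => rw [cj_mul]; exact mul_mem hy hz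

lemma FD_bot : FD F ((⊥ : Subgroup Dˣ) : Set Dˣ) := by
  have h1 : alg F ((⊥ : Subgroup Dˣ) : Set Dˣ) ≤ ⊥ := by
    refine Algebra.adjoin_le ?_
    rintro _ ⟨g, hg, rfl⟩
    have : g = 1 := by simpa using hg
    subst this
    exact one_mem _
  have h2 : Subalgebra.toSubmodule (alg F ((⊥ : Subgroup Dˣ) : Set Dˣ)) ≤
      Subalgebra.toSubmodule (⊥ : Subalgebra F D) := h1
  exact fg_of_le_fg Subalgebra.fg_bot_toSubmodule h2

variable [Algebra.IsAlgebraic F D]

lemma FD_sup_zpowers (K : Subgroup Dˣ) (hK : FD F (K : Set Dˣ)) (x : Dˣ)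
    (hx : ∀ k ∈ K, x * k * x⁻¹ ∈ K) :
    FD F ((K ⊔ Subgroup.zpowers x : Subgroup Dˣ) : Set Dˣ) := by
  obtain ⟨C, hCfg, hAC, hxC⟩ := exists_fg_of_normalizing (alg F (K : Set Dˣ)) hK x
    (Algebra.IsAlgebraic.isAlgebraic _) (cj_mem_alg K x hx)
  refine fg_of_le_fg hCfg ?_
  refine alg_le_of_le_unitsIn C (fun a ha => inv_mem_of_fg C hCfg ha) _ ?_
  refine sup_le ?_ ?_
  · intro k hk; exact hAC (mem_alg hk)
  · rw [Subgroup.zpowers_le]; exact hxC

/-- Adjoining finitely many units which normalize `K` and commute modulo `K`. -/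
lemma FD_sup_closure (K : Subgroup Dˣ) (hK : FD F (K : Set Dˣ)) (S : Finset Dˣ)
    (hnorm : ∀ s ∈ S, ∀ k ∈ K, s * k * s⁻¹ ∈ K)
    (hcomm : ∀ s ∈ S, ∀ t ∈ S, s * t * s⁻¹ * t⁻¹ ∈ K) :
    FD F ((K ⊔ Subgroup.closure (S : Set Dˣ) : Subgroup Dˣ) : Set Dˣ) := by
  classical
  induction S using Finset.induction_on with
  | empty => simpa using hK
  | insert a S' ha ih =>
    have ih' := ih (fun s hs => hnorm s (Finset.mem_insert_of_mem hs))
      (fun s hs t ht => hcomm s (Finset.mem_insert_of_mem hs) t (Finset.mem_insert_of_mem ht))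
    have hle : K ⊔ Subgroup.closure (S' : Set Dˣ) ≤
        (K ⊔ Subgroup.closure (S' : Set Dˣ)).comap (MulAut.conj a).toMonoidHom := by
      refine sup_le ?_ ?_
      · intro k hk
        rw [Subgroup.mem_comap]
        exact Subgroup.mem_sup_left (hnorm a (Finset.mem_insert_self _ _) k hk)
      · rw [Subgroup.closure_le]
        intro s hs
        rw [SetLike.mem_coe, Subgroup.mem_comap]
        have h1 : (MulAut.conj a).toMonoidHom s = (a * s * a⁻¹ * s⁻¹) * s := by
          simp [MulAut.conj_apply]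
        rw [h1]
        exact mul_mem (Subgroup.mem_sup_left (hcomm a (Finset.mem_insert_self _ _) s
          (Finset.mem_insert_of_mem hs))) (Subgroup.mem_sup_right (Subgroup.subset_closure hs))
    have hnorm' : ∀ k ∈ K ⊔ Subgroup.closure (S' : Set Dˣ),
        a * k * a⁻¹ ∈ K ⊔ Subgroup.closure (S' : Set Dˣ) := by
      intro k hk
      have := hle hk
      rw [Subgroup.mem_comap] at this
      simpa [MulAut.conj_apply] using this
    have h2 := FD_sup_zpowers _ ih' a hnorm'
    refine FD_mono ?_ h2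
    have h3 : K ⊔ Subgroup.closure ((insert a S' : Finset Dˣ) : Set Dˣ) ≤
        K ⊔ Subgroup.closure (S' : Set Dˣ) ⊔ Subgroup.zpowers a := by
      refine sup_le (le_sup_of_le_left le_sup_left) ?_
      rw [Subgroup.closure_le]
      intro s hs
      rw [Finset.coe_insert] at hs
      rcases hs with rfl | hs
      · exact Subgroup.mem_sup_right (Subgroup.mem_zpowers _)
      · exact Subgroup.mem_sup_left (Subgroup.mem_sup_right (Subgroup.subset_closure hs))
    exact h3

/-- A finitely generated group of units in which commutators of generators are central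
generates a finite-dimensional subalgebra. -/
lemma FD_closure_of_class_two (S : Finset Dˣ)
    (h : ∀ s ∈ S, ∀ t ∈ S, ∀ r ∈ S, Commute (s * t * s⁻¹ * t⁻¹) r) :
    FD F ((Subgroup.closure (S : Set Dˣ) : Subgroup Dˣ) : Set Dˣ) := by
  classical
  set Z : Finset Dˣ := (S ×ˢ S).image (fun p => p.1 * p.2 * p.1⁻¹ * p.2⁻¹) with hZ
  have hZmem : ∀ z ∈ Z, ∃ s ∈ S, ∃ t ∈ S, z = s * t * s⁻¹ * t⁻¹ := by
    intro z hz
    rw [hZ, Finset.mem_image] at hz
    obtain ⟨p, hp, rfl⟩ := hz
    rw [Finset.mem_product] at hp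
    exact ⟨p.1, hp.1, p.2, hp.2, rfl⟩
  have hZcl : ∀ z ∈ Z, ∀ y ∈ Subgroup.closure (S : Set Dˣ), Commute z y := by
    intro z hz y hy
    obtain ⟨s, hs, t, ht, rfl⟩ := hZmem z hz
    have : Subgroup.closure (S : Set Dˣ) ≤ Subgroup.centralizer {s * t * s⁻¹ * t⁻¹} := by
      rw [Subgroup.closure_le]
      intro r hr
      rw [SetLike.mem_coe, Subgroup.mem_centralizer_iff]
      intro x hx
      rw [Set.mem_singleton_iff] at hx
      subst hx
      exact (h s hs t ht r hr).eq
    have h2 := this hy
    rw [Subgroup.mem_centralizer_iff] at h2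
    exact h2 _ (Set.mem_singleton _)
  have hZS : ∀ z ∈ Z, z ∈ Subgroup.closure (S : Set Dˣ) := by
    intro z hz
    obtain ⟨s, hs, t, ht, rfl⟩ := hZmem z hz
    have hs' := Subgroup.subset_closure (k := (S : Set Dˣ)) hs
    have ht' := Subgroup.subset_closure (k := (S : Set Dˣ)) ht
    exact mul_mem (mul_mem (mul_mem hs' ht') (inv_mem hs')) (inv_mem ht')
  have step1 : FD F (((⊥ : Subgroup Dˣ) ⊔ Subgroup.closure (Z : Set Dˣ) : Subgroup Dˣ) : Set Dˣ) := by
    refine FD_sup_closure ⊥ FD_bot Z ?_ ?_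
    · intro s _ k hk
      rw [Subgroup.mem_bot] at hk
      subst hk
      simp
    · intro z hz z' hz'
      have := (hZcl z hz z' (hZS z' hz')).eq
      rw [Subgroup.mem_bot, this]
      group
  have hKc : ∀ s ∈ S, ∀ k ∈ (⊥ : Subgroup Dˣ) ⊔ Subgroup.closure (Z : Set Dˣ), s * k = k * s := by
    intro s hs k hk
    have : (⊥ : Subgroup Dˣ) ⊔ Subgroup.closure (Z : Set Dˣ) ≤ Subgroup.centralizer {s} := by
      refine sup_le bot_le ?_
      rw [Subgroup.closure_le]
      intro z hz
      rw [SetLike.mem_coe, Subgroup.mem_centralizer_iff]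
      intro x hx
      rw [Set.mem_singleton_iff] at hx
      subst hx
      exact ((hZcl z hz x (Subgroup.subset_closure hs)).eq).symm
    have h2 := this hk
    rw [Subgroup.mem_centralizer_iff] at h2
    exact h2 _ (Set.mem_singleton _)
  have step2 := FD_sup_closure _ step1 S ?_ ?_
  · exact FD_mono (by exact_mod_cast (le_sup_right : Subgroup.closure (S : Set Dˣ) ≤ _)) step2
  · intro s hs k hk
    rw [hKc s hs k hk, mul_assoc, mul_inv_cancel, mul_one]
    exact hk
  · intro s hs t ht
    refine Subgroup.mem_sup_right (Subgroup.subset_closure ?_)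
    rw [hZ, Finset.coe_image]
    exact ⟨(s, t), by simp [hs, ht], rfl⟩

end Vale.Agent.H53.Kurosh
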