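import Vale.Agent.H53.Kurosh.NormalAny

/-!
# Bounded degree over the centre on commutators or on a normal subgroup

The two-sided (central) forms of the finiteness theorems, for an arbitrary centre. `DegLE F d z`
says that `1, z, …, z ^ d` are linearly dependent over `F`.
-/

namespace Vale.Agent.H53.Kurosh

open Polynomial

universe u v w

variable {F : Type v} {D : Type u} [Field F] [DivisionRing D] [Algebra F D]

lemma isAlgebraic_of_degLE {d : ℕ} {z : D} (h : DegLE F d z) : IsAlgebraic F z := by
  obtain ⟨p, hp0, -, hp⟩ := (degLE_iff d z).mp h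
  exact ⟨p, hp0, hp⟩

lemma one_le_of_degLE_one {d : ℕ} (h : DegLE F d (1 : D)) : 1 ≤ d := by
  by_contra hd
  have hd0 : d = 0 := by omega
  subst hd0
  apply h
  have : (fun i : Fin (0 + 1) => ((1 : D)) ^ (i : ℕ)) = fun _ => (1 : D) := by
    funext i; simp
  rw [this, Fintype.linearIndependent_iff]
  intro g hg i
  have h0 : g 0 = 0 := by simpa using hg
  have hi : i = 0 := Fin.ext (by have := i.2; simp only [Fin.val_zero]; omega)
  rw [hi]
  exact h0

lemma one_le_of_degLE_zero {d : ℕ} (h : DegLE F d (0 : D)) : 1 ≤ d := by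
  by_contra hd
  have hd0 : d = 0 := by omega
  subst hd0
  apply h
  have : (fun i : Fin (0 + 1) => ((0 : D)) ^ (i : ℕ)) = fun _ => (1 : D) := by
    funext i
    have hi : (i : ℕ) = 0 := by have := i.2; omega
    rw [hi, pow_zero]
  rw [this, Fintype.linearIndependent_iff]
  intro g hg i
  have h0 : g 0 = 0 := by simpa using hg
  have hi : i = 0 := Fin.ext (by have := i.2; simp only [Fin.val_zero]; omega)
  rw [hi]
  exact h0

/-- Multiplicative commutators of degree at most `d` over the centre, any centre. -/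
theorem finite_of_mul_commutators_degLE_any [Algebra.IsCentral F D] (d : ℕ)
    (h : ∀ a b : D, a ≠ 0 → b ≠ 0 → DegLE F d (a * b * a⁻¹ * b⁻¹)) :
    Module.Finite F D ∧ Module.finrank F D ≤ d ^ 2 := by
  rcases finite_or_infinite F with hF | hF
  · have hd : 1 ≤ d := by
      have h1 := h 1 1 one_ne_zero one_ne_zero
      have e : (1 : D) * 1 * 1⁻¹ * 1⁻¹ = 1 := by simp
      rw [e] at h1
      exact one_le_of_degLE_one h1
    obtain ⟨h1, h2⟩ := Vale.Agent.H7.finite_and_finrank_eq_one_of_surjective (F := F)
      (Vale.Agent.H7.surjective_algebraMap_of_comm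
        (Vale.Agent.H7.mul_comm_of_mul_commutators_isAlgebraic
          (fun a b ha hb => isAlgebraic_of_degLE (h a b ha hb))))
    exact ⟨h1, by rw [h2]; exact Nat.one_le_pow _ _ hd⟩
  · exact finite_of_add_commutators_degLE d (degLE_add_commutator_of_mul d h)

/-- Additive commutators of degree at most `d` over the centre, any centre. -/
theorem finite_of_add_commutators_degLE_any [Algebra.IsCentral F D] (d : ℕ)
    (h : ∀ a b : D, DegLE F d (a * b - b * a)) :
    Module.Finite F D ∧ Module.finrank F D ≤ d ^ 2 := by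
  rcases finite_or_infinite F with hF | hF
  · have hd : 1 ≤ d := by
      have h1 := h 1 1
      rw [sub_self] at h1
      exact one_le_of_degLE_zero h1
    obtain ⟨h1, h2⟩ := Vale.Agent.H7.finite_and_finrank_eq_one_of_surjective (F := F)
      (Vale.Agent.H7.surjective_algebraMap_of_comm
        (Vale.Agent.H7.mul_comm_of_add_commutators_isAlgebraic
          (fun a b => isAlgebraic_of_degLE (h a b))))
    exact ⟨h1, by rw [h2]; exact Nat.one_le_pow _ _ hd⟩
  · exact finite_of_add_commutators_degLE d h

/-- A noncentral normal subgroup of elements of degree at most `d` over the centre, any centre. -/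
theorem finite_of_normal_subgroup_degLE_any [Algebra.IsCentral F D] (d : ℕ) (N : Subgroup Dˣ)
    [hN : N.Normal] (hnc : ∃ x ∈ N, ∃ a : D, a * (x : D) ≠ (x : D) * a)
    (hdeg : ∀ x ∈ N, DegLE F d ((x : Dˣ) : D)) :
    Module.Finite F D ∧ Module.finrank F D ≤ (4 * d + 1) ^ 2 := by
  rcases finite_or_infinite F with hF | hF
  · exfalso
    obtain ⟨x, hx, hxa⟩ := hnc
    obtain ⟨g, hg0, hg⟩ := Vale.Agent.H7.exists_mul_commutator_not_algebraic (F := F) (x : D)
      (isAlgebraic_of_degLE (hdeg x hx)) hxa
    apply hg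
    have e : g * (x : D) ^ (Nat.card F) * g⁻¹ * ((x : D) ^ (Nat.card F))⁻¹
        = ((Units.mk0 g hg0 * x ^ (Nat.card F) * (Units.mk0 g hg0)⁻¹ * (x ^ (Nat.card F))⁻¹ : Dˣ)
            : D) := by
      simp
    rw [e]
    exact isAlgebraic_of_degLE
      (hdeg _ (N.mul_mem (hN.conj_mem _ (N.pow_mem hx _) _) (N.inv_mem (N.pow_mem hx _))))
  · have hd : 1 ≤ d := one_le_of_degLE_one (by simpa using hdeg 1 N.one_mem)
    have hcomm : ∀ x ∈ N, ∀ y : D, DegLE F d ((x : D) * y - y * (x : D)) := by
      intro x hx y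
      have key := degLE_conj_sub_of_commutators d hd (x : D) (y * x) (Units.ne_zero x)
        (fun e he => by
          have e1 : (x : D) * e * (x : D)⁻¹ * e⁻¹
              = ((x * (Units.mk0 e he * x⁻¹ * (Units.mk0 e he)⁻¹) : Dˣ) : D) := by
            simp [mul_assoc]
          rw [e1]
          exact hdeg _ (N.mul_mem hx (hN.conj_mem x⁻¹ (N.inv_mem hx) (Units.mk0 e he))))
      have e2 : (x : D) * (y * x) * (x : D)⁻¹ - y * x = x * y - y * x := by
        simp [mul_assoc]
      rwa [e2] at key
    obtain ⟨x, hx, hxa⟩ := hnc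
    apply finite_of_commutators_with_conj_degLE d (x : D) hxa
    intro g y hg
    have e : g * (x : D) * g⁻¹ = ((Units.mk0 g hg * x * (Units.mk0 g hg)⁻¹ : Dˣ) : D) := by
      simp
    rw [e]
    exact hcomm _ (hN.conj_mem x hx (Units.mk0 g hg)) y

end Vale.Agent.H53.Kurosh
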