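import Vale.Agent.H53.Kurosh.Descent
import Vale.Agent.H78.KuroshDens
import Vale.Agent.H97.Kurosh.Generic
import Vale.Agent.H56.Kurosh.MaxSubfield
import Vale.Agent.H7.Kurosh.Count

/-!
# Division rings whose commutators are left algebraic of bounded degree over a subfield
-/

namespace Vale.Agent.H53.Kurosh

open Polynomial

universe u v w

variable {F : Type v} {D : Type u} [Field F] [DivisionRing D] [Algebra F D]

/-- `1, z, …, z ^ d` are linearly dependent over `F`. -/
def DegLE (F : Type v) {D : Type u} [Field F] [DivisionRing D] [Algebra F D] (d : ℕ) (z : D) :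
    Prop :=
  ¬ LinearIndependent F (fun i : Fin (d + 1) => z ^ (i : ℕ))

lemma degLE_iff (d : ℕ) (z : D) :
    DegLE F d z ↔ ∃ p : F[X], p ≠ 0 ∧ p.natDegree ≤ d ∧ aeval z p = 0 := by
  classical
  unfold DegLE
  rw [Fintype.not_linearIndependent_iff]
  constructor
  · rintro ⟨g, hg, i, hi⟩
    set p : F[X] := ∑ i : Fin (d + 1), monomial (i : ℕ) (g i) with hp
    have hcoeff : ∀ j : Fin (d + 1), p.coeff j = g j := by
      intro j
      rw [hp, finsetSum_coeff, Finset.sum_eq_single j]
      · simp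
      · intro b _ hb
        rw [coeff_monomial, if_neg]
        exact fun h' => hb (Fin.ext h')
      · simp
    refine ⟨p, ?_, ?_, ?_⟩
    · intro hp0
      apply hi
      rw [← hcoeff i, hp0]
      simp
    · rw [hp]
      refine natDegree_sum_le_of_forall_le _ _ fun i _ => ?_
      exact (natDegree_monomial_le _).trans (Nat.lt_succ_iff.mp i.2)
    · rw [hp, map_sum, ← hg]
      refine Finset.sum_congr rfl fun i _ => ?_
      rw [aeval_monomial, Algebra.smul_def]
  · rintro ⟨p, hp0, hpd, hpz⟩
    refine ⟨fun i => p.coeff i, ?_, ⟨p.natDegree, Nat.lt_succ_of_le hpd⟩, ?_⟩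
    · rw [← hpz, aeval_eq_sum_range' (Nat.lt_succ_of_le hpd),
        Fin.sum_univ_eq_sum_range (fun i => p.coeff i • z ^ i) (d + 1)]
    · simpa using hp0

lemma degLE_smul_add (d : ℕ) (z : D) (μ c : F) (hμ : μ ≠ 0) (h : DegLE F d z) :
    DegLE F d (μ • z + algebraMap F D c) := by
  rw [degLE_iff] at h ⊢
  obtain ⟨p, hp0, hpd, hpz⟩ := h
  set l : F[X] := C μ⁻¹ * (X - C c) with hl
  have hldeg : l.natDegree = 1 := by
    rw [hl, natDegree_C_mul (inv_ne_zero hμ), natDegree_X_sub_C]
  refine ⟨p.comp l, ?_, ?_, ?_⟩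
  · intro h0
    rw [comp_eq_zero_iff] at h0
    rcases h0 with h0 | ⟨_, h0⟩
    · exact hp0 h0
    · rw [h0, natDegree_C] at hldeg
      exact zero_ne_one hldeg
  · rw [natDegree_comp, hldeg, mul_one]
    exact hpd
  · rw [aeval_comp]
    have : aeval (μ • z + algebraMap F D c) l = z := by
      rw [hl]
      simp only [map_mul, aeval_C, map_sub, aeval_X]
      rw [add_sub_cancel_right, ← Algebra.smul_def, smul_smul, inv_mul_cancel₀ hμ, one_smul]
    rw [this, hpz]

lemma degLE_inv (d : ℕ) (z : D) (hz : z ≠ 0) (h : DegLE F d z) : DegLE F d z⁻¹ := by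
  classical
  unfold DegLE at h ⊢
  rw [Fintype.not_linearIndependent_iff] at h ⊢
  obtain ⟨g, hg, i, hi⟩ := h
  refine ⟨fun j => g (Fin.rev j), ?_, Fin.rev i, by simpa using hi⟩
  have h2 := congrArg (fun t => t * z⁻¹ ^ d) hg
  simp only [Finset.sum_mul, zero_mul] at h2
  rw [← h2, ← Equiv.sum_comp Fin.revPerm]
  refine Finset.sum_congr rfl fun j _ => ?_
  simp only [Fin.revPerm_apply, Fin.rev_rev]
  rw [smul_mul_assoc]
  congr 1
  have hj : (j : ℕ) + ((Fin.rev j : Fin (d + 1)) : ℕ) = d := by
    rw [Fin.val_rev]; omega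
  have : z⁻¹ ^ d = z⁻¹ ^ (j : ℕ) * z⁻¹ ^ ((Fin.rev j : Fin (d + 1)) : ℕ) := by
    rw [← pow_add, hj]
  rw [this, ← mul_assoc]
  simp only [inv_pow]
  rw [mul_inv_cancel₀ (pow_ne_zero _ hz), one_mul]

lemma mulRight_pow_apply {K : Type w} [Field K] [Module K D] [IsScalarTower K D D] (z : D)
    (n : ℕ) (y : D) : ((LinearMap.mulRight K z) ^ n) y = y * z ^ n := by
  induction n generalizing y with
  | zero => simp
  | succ n ih =>
    rw [pow_succ, Module.End.mul_apply, ih, LinearMap.mulRight_apply, pow_succ', mul_assoc]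

/-- If `μ u + w` has degree at most `d` for all nonzero `μ` in the infinite field `F`, so does
`w`. -/
lemma degLE_of_line [Infinite F] (d : ℕ) (u w : D)
    (h : ∀ μ : F, μ ≠ 0 → DegLE F d (μ • u + w)) : DegLE F d w := by
  classical
  intro hw
  let q : Bool → MvPolynomial Unit F := fun t => if t then MvPolynomial.X () else 1
  let B : Bool → Module.End F D := fun t =>
    if t then LinearMap.mulLeft F u else LinearMap.mulLeft F w
  have hZ : ∀ s : Unit → F, ∑ t, MvPolynomial.eval s (q t) • B t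
      = LinearMap.mulLeft F (s () • u + w) := by
    intro s
    ext y
    simp [q, B, add_mul]
  have hZpow : ∀ (s : Unit → F) (n : ℕ),
      ((∑ t, MvPolynomial.eval s (q t) • B t) ^ n) (1 : D) = (s () • u + w) ^ n := by
    intro s n
    rw [hZ]
    induction n with
    | zero => simp
    | succ n ih => rw [pow_succ', Module.End.mul_apply, ih, LinearMap.mulLeft_apply, pow_succ']
  have hS : ({0}ᶜ : Set F).Infinite := (Set.finite_singleton (0 : F)).infinite_compl
  have h0 : LinearIndependent F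
      (fun b : Fin (d + 1) => ((∑ t, MvPolynomial.eval (fun _ => (0 : F)) (q t) • B t) ^ (b : ℕ))
        (1 : D)) := by
    have e : (fun b : Fin (d + 1) =>
        ((∑ t, MvPolynomial.eval (fun _ => (0 : F)) (q t) • B t) ^ (b : ℕ)) (1 : D))
        = fun i : Fin (d + 1) => w ^ (i : ℕ) := by
      funext b
      rw [hZpow]
      simp
    rw [e]
    exact hw
  obtain ⟨s, hs, hind⟩ := Vale.Agent.H97.exists_generic_cyclic q B (1 : D) (d + 1)
    ({0}ᶜ : Set F) hS (fun _ => 0) h0
  apply h (s ()) (by simpa using hs ())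
  have e : (fun b : Fin (d + 1) =>
      ((∑ t, MvPolynomial.eval s (q t) • B t) ^ (b : ℕ)) (1 : D))
      = fun i : Fin (d + 1) => (s () • u + w) ^ (i : ℕ) := by
    funext b
    rw [hZpow]
  rw [e] at hind
  exact hind


/-- If all multiplicative commutators have degree at most `d` over the infinite central field `F`,
so do all additive commutators. -/
lemma degLE_add_commutator_of_mul [Infinite F] (d : ℕ)
    (h : ∀ a b : D, a ≠ 0 → b ≠ 0 → DegLE F d (a * b * a⁻¹ * b⁻¹)) (a b : D) :
    DegLE F d (a * b - b * a) := by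
  have hd : 1 ≤ d := by
    by_contra hd
    have hd0 : d = 0 := by omega
    subst hd0
    have h1 := h 1 1 one_ne_zero one_ne_zero
    apply h1
    have : (fun i : Fin (0 + 1) => ((1 : D) * 1 * 1⁻¹ * 1⁻¹) ^ (i : ℕ)) = fun _ => (1 : D) := by
      funext i; simp
    rw [this, Fintype.linearIndependent_iff]
    intro g hg i
    have h0 : g 0 = 0 := by simpa using hg
    have hi : i = 0 := Fin.ext (by have := i.2; simp only [Fin.val_zero]; omega)
    rw [hi]
    exact h0
  by_cases hc : a * b - b * a = 0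
  · rw [hc, degLE_iff]
    exact ⟨X, X_ne_zero, by rw [natDegree_X]; exact hd, by simp⟩
  set c := a * b - b * a with hcdef
  have ha : a ≠ 0 := by
    rintro rfl
    apply hc
    simp [hcdef]
  -- the element `e = b * a + lam` is nonzero for every central `lam`
  have hline : ∀ μ : F, μ ≠ 0 → DegLE F d (μ • (b * a * c⁻¹) + c⁻¹) := by
    intro μ hμ
    set e : D := b * a + algebraMap F D μ⁻¹ with he
    have hcomm : algebraMap F D μ⁻¹ * a = a * algebraMap F D μ⁻¹ := Algebra.commutes _ _
    have he0 : e ≠ 0 := by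
      intro h0
      apply hc
      have h1 : b * a = - algebraMap F D μ⁻¹ := eq_neg_of_add_eq_zero_left h0
      have h2 : b = - algebraMap F D μ⁻¹ * a⁻¹ := by
        rw [← h1, mul_assoc, mul_inv_cancel₀ ha, mul_one]
      have h3 : a * b = b * a := by
        rw [h2]
        rw [neg_mul, neg_mul, mul_neg, mul_assoc, inv_mul_cancel₀ ha, mul_one, ← mul_assoc,
          ← hcomm, mul_assoc, mul_inv_cancel₀ ha, mul_one]
      rw [hcdef, h3, sub_self]
    have hz := h a e ha he0
    have hconj : a * e * a⁻¹ = e + c := by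
      have e1 : a * (b * a) * a⁻¹ = a * b := by
        rw [mul_assoc, mul_assoc, mul_inv_cancel₀ ha, mul_one]
      have e2 : a * algebraMap F D μ⁻¹ * a⁻¹ = algebraMap F D μ⁻¹ := by
        rw [← hcomm, mul_assoc, mul_inv_cancel₀ ha, mul_one]
      rw [he, mul_add, add_mul, e1, e2, hcdef]
      abel
    have hz1 : a * e * a⁻¹ * e⁻¹ = c * e⁻¹ + 1 := by
      rw [hconj, add_mul, mul_inv_cancel₀ he0, add_comm]
    have hz2 : DegLE F d (c * e⁻¹) := by
      have := degLE_smul_add d (a * e * a⁻¹ * e⁻¹) 1 (-1) one_ne_zero hz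
      rw [hz1] at this
      simpa using this
    have hz3 : DegLE F d (e * c⁻¹) := by
      have := degLE_inv d (c * e⁻¹) (mul_ne_zero hc (inv_ne_zero he0)) hz2
      rwa [mul_inv_rev, inv_inv] at this
    have hz4 := degLE_smul_add d (e * c⁻¹) μ 0 hμ hz3
    have : μ • (e * c⁻¹) + algebraMap F D 0 = μ • (b * a * c⁻¹) + c⁻¹ := by
      rw [he, map_zero, add_zero, add_mul, smul_add]
      congr 1
      rw [Algebra.smul_def, ← mul_assoc, ← map_mul, mul_inv_cancel₀ hμ, map_one, one_mul]
    rwa [this] at hz4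
  have hcinv := degLE_of_line d (b * a * c⁻¹) c⁻¹ hline
  have := degLE_inv d c⁻¹ (inv_ne_zero hc) hcinv
  rwa [inv_inv] at this


/-- Division rings with infinite centre `F` all of whose additive commutators have degree at most
`d` over `F` have dimension at most `d ^ 2` over `F`. -/
theorem finite_of_add_commutators_degLE [Infinite F] [Algebra.IsCentral F D] (d : ℕ)
    (h : ∀ a b : D, DegLE F d (a * b - b * a)) :
    Module.Finite F D ∧ Module.finrank F D ≤ d ^ 2 := by
  classical
  obtain ⟨L, hLcomm, hLmax⟩ := Vale.Agent.H56.exists_maximal_subfield D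
  let instL : Field L := { (inferInstance : DivisionRing L) with
    mul_comm := fun a b => Subtype.ext (hLcomm a a.2 b b.2) }
  let ι : L →+* D :=
    { toFun := Subtype.val
      map_one' := rfl
      map_mul' := fun _ _ => rfl
      map_zero' := rfl
      map_add' := fun _ _ => rfl }
  let instM : Module L D := Module.compHom D ι
  have hsmul : ∀ (k : L) (y : D), k • y = (k : D) * y := fun k y => rfl
  have instT : IsScalarTower L D D := ⟨fun k y z => by
    simp only [hsmul, smul_eq_mul, mul_assoc]⟩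
  have hmax : ∀ c : D, (∀ k : L, c * (k • (1 : D)) = (k • (1 : D)) * c) →
      ∃ k : L, k • (1 : D) = c := by
    intro c hc
    have hcL : c ∈ L := hLmax c fun a ha => by
      have := hc ⟨a, ha⟩
      simpa [hsmul] using this
    exact ⟨⟨c, hcL⟩, by simp [hsmul]⟩
  have hFL : ∀ t : F, algebraMap F D t ∈ L := fun t => hLmax _ fun a _ => Algebra.commutes t a
  let κ : F → L := fun t => ⟨algebraMap F D t, hFL t⟩
  have hκinj : Function.Injective κ := fun s t hst =>
    (algebraMap F D).injective (congrArg Subtype.val hst)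
  have hκsmul : ∀ (t : F) (y : D), κ t • y = t • y := fun t y => by
    rw [hsmul, Algebra.smul_def]
  -- there is no `L`-independent family of `d + 1` elements
  have hno : ∀ v : Fin (d + 1) → D, ¬ LinearIndependent L v := by
    intro v hv
    obtain ⟨φ₁, hφ₁, hφ₁v⟩ := Vale.Agent.H78.exists_mem_span_mulRight_apply_eq hmax v hv
      (fun k => ((k : ℕ) : L) • v k)
    obtain ⟨φ₂, hφ₂, hφ₂v⟩ := Vale.Agent.H78.exists_mem_span_mulRight_apply_eq hmax v hv
      (fun k => if hk : (k : ℕ) + 1 < d + 1 then v ⟨(k : ℕ) + 1, hk⟩ else 0)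
    have hZ : ∀ (k : ℕ) (hk : k + 1 < d + 1),
        (φ₁ * φ₂ - φ₂ * φ₁) (v ⟨k, by omega⟩) = v ⟨k + 1, hk⟩ := by
      intro k hk
      simp only [LinearMap.sub_apply, Module.End.mul_apply]
      rw [hφ₂v, hφ₁v, dif_pos hk, hφ₁v, map_smul, hφ₂v, dif_pos hk]
      simp only [Nat.cast_add, Nat.cast_one, add_smul, one_smul, add_sub_cancel_left]
    have hZpow : ∀ (b : ℕ) (hb : b < d + 1),
        ((φ₁ * φ₂ - φ₂ * φ₁) ^ b) (v 0) = v ⟨b, hb⟩ := by
      intro b
      induction b with
      | zero => intro _; simp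
      | succ b ih =>
        intro hb
        rw [pow_succ', Module.End.mul_apply, ih (by omega), hZ b hb]
    obtain ⟨c₁, hc₁⟩ := (Finsupp.mem_span_range_iff_exists_finsupp).mp hφ₁
    obtain ⟨c₂, hc₂⟩ := (Finsupp.mem_span_range_iff_exists_finsupp).mp hφ₂
    let q : (c₁.support × c₂.support) → MvPolynomial (D ⊕ D) L := fun t =>
      MvPolynomial.X (Sum.inl (t.1 : D)) * MvPolynomial.X (Sum.inr (t.2 : D))
    let B : (c₁.support × c₂.support) → Module.End L D := fun t =>
      LinearMap.mulRight L (t.1 : D) * LinearMap.mulRight L (t.2 : D)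
        - LinearMap.mulRight L (t.2 : D) * LinearMap.mulRight L (t.1 : D)
    have hZs : ∀ s : D ⊕ D → L, ∑ t, MvPolynomial.eval s (q t) • B t
        = (∑ i ∈ c₁.support, s (Sum.inl i) • LinearMap.mulRight L i)
            * (∑ j ∈ c₂.support, s (Sum.inr j) • LinearMap.mulRight L j)
          - (∑ j ∈ c₂.support, s (Sum.inr j) • LinearMap.mulRight L j)
            * (∑ i ∈ c₁.support, s (Sum.inl i) • LinearMap.mulRight L i) := by
      intro s
      rw [Finset.sum_mul_sum, Finset.sum_mul_sum, Finset.sum_comm (s := c₂.support),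
        ← Finset.sum_sub_distrib, Fintype.sum_prod_type, ← Finset.sum_coe_sort c₁.support]
      refine Finset.sum_congr rfl fun i _ => ?_
      rw [← Finset.sum_sub_distrib, ← Finset.sum_coe_sort c₂.support]
      refine Finset.sum_congr rfl fun j _ => ?_
      simp only [q, B, map_mul, MvPolynomial.eval_X, smul_sub, smul_mul_smul_comm]
      rw [mul_comm (s (Sum.inr (j : D)))]
    have hs₀ : ∑ t, MvPolynomial.eval (Sum.elim c₁ c₂) (q t) • B t = φ₁ * φ₂ - φ₂ * φ₁ := by
      rw [hZs, ← hc₁, ← hc₂]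
      rfl
    have h0 : LinearIndependent L (fun b : Fin (d + 1) =>
        ((∑ t, MvPolynomial.eval (Sum.elim c₁ c₂) (q t) • B t) ^ (b : ℕ)) (v 0)) := by
      have e : (fun b : Fin (d + 1) =>
          ((∑ t, MvPolynomial.eval (Sum.elim c₁ c₂) (q t) • B t) ^ (b : ℕ)) (v 0)) = v := by
        funext b
        rw [hs₀, hZpow b b.2]
      rw [e]
      exact hv
    have hS : (Set.range κ).Infinite := Set.infinite_range_of_injective hκinj
    obtain ⟨s, hs, hind⟩ := Vale.Agent.H97.exists_generic_cyclic q B (v 0) (d + 1)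
      (Set.range κ) hS (Sum.elim c₁ c₂) h0
    choose t ht using hs
    set x₁ : D := ∑ i ∈ c₁.support, t (Sum.inl i) • i with hx₁
    set x₂ : D := ∑ j ∈ c₂.support, t (Sum.inr j) • j with hx₂
    have hR₁ : ∑ i ∈ c₁.support, s (Sum.inl i) • LinearMap.mulRight L i
        = LinearMap.mulRight L x₁ := by
      ext y
      rw [LinearMap.sum_apply, LinearMap.mulRight_apply, hx₁, Finset.mul_sum]
      refine Finset.sum_congr rfl fun i _ => ?_
      rw [LinearMap.smul_apply, LinearMap.mulRight_apply, ← ht, hκsmul, mul_smul_comm]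
    have hR₂ : ∑ j ∈ c₂.support, s (Sum.inr j) • LinearMap.mulRight L j
        = LinearMap.mulRight L x₂ := by
      ext y
      rw [LinearMap.sum_apply, LinearMap.mulRight_apply, hx₂, Finset.mul_sum]
      refine Finset.sum_congr rfl fun i _ => ?_
      rw [LinearMap.smul_apply, LinearMap.mulRight_apply, ← ht, hκsmul, mul_smul_comm]
    set z : D := x₂ * x₁ - x₁ * x₂ with hz
    have hZz : ∑ t, MvPolynomial.eval s (q t) • B t = LinearMap.mulRight L z := by
      rw [hZs, hR₁, hR₂]
      ext y
      simp only [LinearMap.sub_apply, Module.End.mul_apply, LinearMap.mulRight_apply, hz,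
        mul_sub, mul_assoc]
    have hv0 : v 0 ≠ 0 := hv.ne_zero 0
    have hind2 : LinearIndependent L (fun b : Fin (d + 1) => v 0 * z ^ (b : ℕ)) := by
      have e : (fun b : Fin (d + 1) =>
          ((∑ t, MvPolynomial.eval s (q t) • B t) ^ (b : ℕ)) (v 0))
          = fun b : Fin (d + 1) => v 0 * z ^ (b : ℕ) := by
        funext b
        rw [hZz, mulRight_pow_apply]
      rw [e] at hind
      exact hind
    -- conjugate by `v 0`
    set a' : D := v 0 * x₂ * (v 0)⁻¹ with ha'
    set b' : D := v 0 * x₁ * (v 0)⁻¹ with hb'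
    have hu : a' * b' - b' * a' = v 0 * z * (v 0)⁻¹ := by
      rw [ha', hb', hz]
      have e1 : v 0 * x₂ * (v 0)⁻¹ * (v 0 * x₁ * (v 0)⁻¹) = v 0 * (x₂ * x₁) * (v 0)⁻¹ := by
        simp only [mul_assoc, inv_mul_cancel_left₀ hv0]
      have e2 : v 0 * x₁ * (v 0)⁻¹ * (v 0 * x₂ * (v 0)⁻¹) = v 0 * (x₁ * x₂) * (v 0)⁻¹ := by
        simp only [mul_assoc, inv_mul_cancel_left₀ hv0]
      rw [e1, e2, mul_sub, sub_mul]
    apply h a' b'
    rw [hu]
    have hind3 : LinearIndependent L
        (fun b : Fin (d + 1) => (v 0 * z * (v 0)⁻¹) ^ (b : ℕ)) := by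
      have hker : LinearMap.ker (LinearMap.mulRight L (v 0)⁻¹) = ⊥ := by
        rw [LinearMap.ker_eq_bot]
        intro y₁ y₂ hy
        simp only [LinearMap.mulRight_apply] at hy
        exact mul_right_cancel₀ (inv_ne_zero hv0) hy
      have := hind2.map' (LinearMap.mulRight L (v 0)⁻¹) hker
      have e : (fun b : Fin (d + 1) => (v 0 * z * (v 0)⁻¹) ^ (b : ℕ))
          = (LinearMap.mulRight L (v 0)⁻¹) ∘ (fun b : Fin (d + 1) => v 0 * z ^ (b : ℕ)) := by
        funext b
        simp only [Function.comp_apply, LinearMap.mulRight_apply]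
        rw [conj_pow_eq _ _ hv0]
      rw [e]
      exact this
    rw [Fintype.linearIndependent_iff] at hind3 ⊢
    intro g hg i
    have h1 : ∑ j, κ (g j) • (v 0 * z * (v 0)⁻¹) ^ (j : ℕ) = 0 := by
      rw [← hg]
      refine Finset.sum_congr rfl fun j _ => ?_
      rw [hκsmul]
    have h2 := hind3 (fun j => κ (g j)) h1 i
    have h3 : algebraMap F D (g i) = 0 := congrArg Subtype.val h2
    exact (map_eq_zero (algebraMap F D)).mp h3
  have hrank : Module.rank L D ≤ d := by
    apply rank_le
    intro S hS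
    by_contra hcard
    have hcard' : d + 1 ≤ S.card := by omega
    apply hno (fun i : Fin (d + 1) => ((S.equivFin.symm (Fin.castLE hcard' i) : S) : D))
    exact hS.comp (fun i : Fin (d + 1) => S.equivFin.symm (Fin.castLE hcard' i))
      (S.equivFin.symm.injective.comp (Fin.castLE_injective hcard'))
  have : Module.Finite L D := Module.rank_lt_aleph0_iff.mp
    (lt_of_le_of_lt hrank (Cardinal.natCast_lt_aleph0))
  have hfin : Module.finrank L D ≤ d := Module.finrank_le_of_rank_le hrank
  obtain ⟨h1, h2⟩ := Vale.Agent.H7.finite_and_finrank_le_sq (F := F) (K := L) (D := D)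
  exact ⟨h1, h2.trans (Nat.pow_le_pow_left hfin 2)⟩


/-- **Multiplicative commutators.** Let `D` be a division ring with infinite centre `F` and let
`ι : K →+* D` be a (not necessarily central) subfield. If every multiplicative commutator
satisfies a nonzero left polynomial relation of degree at most `d` over `K`, then
`[D : F] ≤ d ^ 2`. -/
theorem finite_of_mul_commutators_leftAlg [Infinite F] [Algebra.IsCentral F D] {K : Type w}
    [Field K] (ι : K →+* D) (d : ℕ)
    (h : ∀ a b : D, a ≠ 0 → b ≠ 0 → ∃ α : Fin (d + 1) → K, α ≠ 0 ∧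
      ∑ i, ι (α i) * (a * b * a⁻¹ * b⁻¹) ^ (i : ℕ) = 0) :
    Module.Finite F D ∧ Module.finrank F D ≤ d ^ 2 := by
  apply finite_of_add_commutators_degLE
  apply degLE_add_commutator_of_mul
  intro a b ha hb
  apply not_linearIndependent_pow_of_forall_conj ι d
  intro y hy
  have e : y * (a * b * a⁻¹ * b⁻¹) * y⁻¹
      = (y * a * y⁻¹) * (y * b * y⁻¹) * (y * a * y⁻¹)⁻¹ * (y * b * y⁻¹)⁻¹ := by
    simp only [mul_inv_rev, inv_inv, mul_assoc, inv_mul_cancel_left₀ hy]
  rw [e]
  exact h _ _ (mul_ne_zero (mul_ne_zero hy ha) (inv_ne_zero hy))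
    (mul_ne_zero (mul_ne_zero hy hb) (inv_ne_zero hy))

/-- **Additive commutators.** Same statement for additive commutators `a * b - b * a`. -/
theorem finite_of_add_commutators_leftAlg [Infinite F] [Algebra.IsCentral F D] {K : Type w}
    [Field K] (ι : K →+* D) (d : ℕ)
    (h : ∀ a b : D, ∃ α : Fin (d + 1) → K, α ≠ 0 ∧
      ∑ i, ι (α i) * (a * b - b * a) ^ (i : ℕ) = 0) :
    Module.Finite F D ∧ Module.finrank F D ≤ d ^ 2 := by
  apply finite_of_add_commutators_degLE
  intro a b
  apply not_linearIndependent_pow_of_forall_conj ι d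
  intro y hy
  have e : y * (a * b - b * a) * y⁻¹
      = (y * a * y⁻¹) * (y * b * y⁻¹) - (y * b * y⁻¹) * (y * a * y⁻¹) := by
    simp only [mul_assoc, inv_mul_cancel_left₀ hy, mul_sub, sub_mul]
  rw [e]
  exact h _ _

end Vale.Agent.H53.Kurosh
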