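import Vale.Agent.H53.Kurosh.Inner

/-!
# The core induction step
-/

namespace Vale.Agent.H53.Kurosh

universe u v

variable {F : Type v} {D : Type u} [Field F] [DivisionRing D] [Algebra F D]

/-- The image of a group homomorphism into `Dˣ` generates a finite-dimensional subalgebra. -/
def FDrep (F : Type v) {D : Type u} [Field F] [DivisionRing D] [Algebra F D]
    {Γ : Type u} [Group Γ] (ρ : Γ →* Dˣ) : Prop :=
  FD F ((ρ.range : Subgroup Dˣ) : Set Dˣ)

lemma alg_toSubmodule_eq_span (K : Subgroup Dˣ) :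
    Subalgebra.toSubmodule (alg F (K : Set Dˣ)) =
      Submodule.span F ((fun g : Dˣ => (g : D)) '' (K : Set Dˣ)) := by
  unfold alg
  rw [Algebra.adjoin_eq_span]
  congr 1
  have h : ((fun g : Dˣ => (g : D)) '' (K : Set Dˣ)) =
      ((K.toSubmonoid.map (Units.coeHom D) : Submonoid D) : Set D) := by
    ext x
    simp
  rw [h, Submonoid.closure_eq]

lemma FDrep_of_finiteIndex {Γ : Type u} [Group Γ] (ρ : Γ →* Dˣ) (H : Subgroup Γ) [H.FiniteIndex]
    (hH : FD F ((H.map ρ : Subgroup Dˣ) : Set Dˣ)) : FDrep F ρ := by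
  unfold FDrep FD
  set A := alg F ((H.map ρ : Subgroup Dˣ) : Set Dˣ) with hA
  have hfin : Finite (Γ ⧸ H) := Subgroup.finite_quotient_of_finiteIndex
  have hB : (⨆ q : Γ ⧸ H, Submodule.span F {((ρ (Quotient.out q) : Dˣ) : D)} *
      Subalgebra.toSubmodule A).FG :=
    Submodule.fg_iSup _ (fun q => (Submodule.fg_span_singleton _).mul hH)
  refine fg_of_le_fg hB ?_
  rw [alg_toSubmodule_eq_span, Submodule.span_le]
  rintro _ ⟨_, ⟨x, rfl⟩, rfl⟩
  have h1 : (Quotient.out (x : Γ ⧸ H))⁻¹ * x ∈ H := by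
    rw [← QuotientGroup.eq]
    exact QuotientGroup.out_eq' (x : Γ ⧸ H)
  have h2 : ((ρ x : Dˣ) : D) = ((ρ (Quotient.out (x : Γ ⧸ H)) : Dˣ) : D) *
      ((ρ ((Quotient.out (x : Γ ⧸ H))⁻¹ * x) : Dˣ) : D) := by
    rw [← Units.val_mul, ← map_mul, mul_inv_cancel_left]
  have h3 : ((ρ ((Quotient.out (x : Γ ⧸ H))⁻¹ * x) : Dˣ) : D) ∈ Subalgebra.toSubmodule A :=
    mem_alg (Subgroup.mem_map_of_mem ρ h1)
  rw [SetLike.mem_coe]
  change ((ρ x : Dˣ) : D) ∈ _
  rw [h2]
  exact Submodule.mem_iSup_of_mem (x : Γ ⧸ H)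
    (Submodule.mul_mem_mul (Submodule.mem_span_singleton_self _) h3)

/-- Finitely many elements of the algebra generated by `ρ(N)` lie in the algebra generated by
the image of a finite subset of `N`. -/
lemma exists_finset_of_mem_alg {Γ : Type u} [Group Γ] (ρ : Γ →* Dˣ) (N : Subgroup Γ)
    (U : Finset D) (hU : ∀ x ∈ U, x ∈ alg F ((N.map ρ : Subgroup Dˣ) : Set Dˣ)) :
    ∃ S : Finset Γ, (S : Set Γ) ⊆ N ∧
      ∀ x ∈ U, x ∈ alg F ((Subgroup.closure (ρ '' (S : Set Γ)) : Subgroup Dˣ) : Set Dˣ) := by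
  classical
  have hone : ∀ x ∈ alg F ((N.map ρ : Subgroup Dˣ) : Set Dˣ), ∃ S : Finset Γ, (S : Set Γ) ⊆ N ∧
      x ∈ alg F ((Subgroup.closure (ρ '' (S : Set Γ)) : Subgroup Dˣ) : Set Dˣ) := by
    intro x hx
    induction hx using Algebra.adjoin_induction with
    | mem y hy =>
      obtain ⟨_, ⟨n, hn, rfl⟩, rfl⟩ := hy
      refine ⟨{n}, by simpa using hn, mem_alg (Subgroup.subset_closure ?_)⟩
      simp
    | algebraMap r => exact ⟨∅, by simp, Subalgebra.algebraMap_mem _ r⟩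
    | add y z _ _ hy hz =>
      obtain ⟨S₁, h₁, h₁'⟩ := hy
      obtain ⟨S₂, h₂, h₂'⟩ := hz
      refine ⟨S₁ ∪ S₂, by simp [h₁, h₂], add_mem ?_ ?_⟩
      · refine alg_mono ?_ h₁'
        exact Subgroup.closure_mono (Set.image_mono (by simp))
      · refine alg_mono ?_ h₂'
        exact Subgroup.closure_mono (Set.image_mono (by simp))
    | mul y z _ _ hy hz =>
      obtain ⟨S₁, h₁, h₁'⟩ := hy
      obtain ⟨S₂, h₂, h₂'⟩ := hz
      refine ⟨S₁ ∪ S₂, by simp [h₁, h₂], mul_mem ?_ ?_⟩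
      · refine alg_mono ?_ h₁'
        exact Subgroup.closure_mono (Set.image_mono (by simp))
      · refine alg_mono ?_ h₂'
        exact Subgroup.closure_mono (Set.image_mono (by simp))
  induction U using Finset.induction_on with
  | empty => exact ⟨∅, by simp, by simp⟩
  | insert a U' _ ih =>
    obtain ⟨S₁, h₁, h₁'⟩ := ih (fun x hx => hU x (Finset.mem_insert_of_mem hx))
    obtain ⟨S₂, h₂, h₂'⟩ := hone a (hU a (Finset.mem_insert_self _ _))
    refine ⟨S₁ ∪ S₂, by simp [h₁, h₂], ?_⟩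
    intro x hx
    rw [Finset.mem_insert] at hx
    rcases hx with rfl | hx
    · refine alg_mono ?_ h₂'
      exact Subgroup.closure_mono (Set.image_mono (by simp))
    · refine alg_mono ?_ (h₁' x hx)
      exact Subgroup.closure_mono (Set.image_mono (by simp))

variable [Algebra.IsAlgebraic F D]

lemma inv_mem_of_isAlgebraic (M : Subalgebra F D) {m : D} (hm : m ∈ M) : m⁻¹ ∈ M := by
  have h1 : (Subalgebra.toSubmodule (Algebra.adjoin F {m})).FG :=
    (Algebra.IsAlgebraic.isAlgebraic m).isIntegral.fg_adjoin_singleton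
  have h2 : m⁻¹ ∈ Algebra.adjoin F {m} :=
    inv_mem_of_fg _ h1 (Algebra.subset_adjoin (Set.mem_singleton _))
  have h3 : Algebra.adjoin F {m} ≤ M := Algebra.adjoin_le (by simpa using hm)
  exact h3 h2


/-- **Core step.** Let `ρ : Γ → Dˣ` with `Γ` finitely generated and `N` a normal subgroup of `Γ`
such that `ρ(N)` generates a locally finite-dimensional algebra, finitely generated torsion
quotients of `Γ / N` are finite, and the conclusion is known for groups which map to `Γ / N`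
with `ρ`-central kernel.  Then `ρ(Γ)` generates a finite-dimensional algebra. -/
theorem core_step {Γ : Type u} [Group Γ] [Group.FG Γ] (ρ : Γ →* Dˣ)
    (N : Subgroup Γ) [hN : N.Normal]
    (hloc : ∀ S : Finset Γ, (S : Set Γ) ⊆ N →
      FD F ((Subgroup.closure (ρ '' (S : Set Γ)) : Subgroup Dˣ) : Set Dˣ))
    (htf : ∀ (H : Subgroup Γ) [H.Normal], N ≤ H → (∀ x : Γ, ∃ k : ℕ, 0 < k ∧ x ^ k ∈ H) →
      H.FiniteIndex)
    (hquot : ∀ (Γ' : Type u) [Group Γ'] [Group.FG Γ'] (α : Γ' →* Γ ⧸ N) (ρ' : Γ' →* Dˣ),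
      (∀ x ∈ α.ker, ∀ y : Γ', Commute (ρ' x) (ρ' y)) → FDrep F ρ') :
    FDrep F ρ := by
  classical
  set M : Subalgebra F D := alg F ((N.map ρ : Subgroup Dˣ) : Set Dˣ) with hM
  have hMinv : ∀ m ∈ M, m⁻¹ ∈ M := fun m hm => inv_mem_of_isAlgebraic M hm
  have hMnorm : ∀ (x : Γ), ∀ m ∈ M, cj (ρ x) m ∈ M := by
    intro x
    apply cj_mem_alg
    rintro _ ⟨n, hn, rfl⟩
    exact ⟨x * n * x⁻¹, hN.conj_mem n hn x, by simp⟩
  -- the group of pairs `(x, c)` with `c` centralizing `M` and `ρ x * c⁻¹ ∈ M`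
  let T : Subgroup (Γ × Dˣ) :=
    { carrier := {p | (∀ y ∈ M, Commute (p.2 : D) y) ∧
        ((ρ p.1 : Dˣ) : D) * ((p.2⁻¹ : Dˣ) : D) ∈ M}
      mul_mem' := by
        rintro p q ⟨hp1, hp2⟩ ⟨hq1, hq2⟩
        refine ⟨fun y hy => ?_, ?_⟩
        · simp only [Prod.snd_mul, Units.val_mul]
          exact (hp1 y hy).mul_left (hq1 y hy)
        · have h1 : ((ρ (p * q).1 : Dˣ) : D) * (((p * q).2⁻¹ : Dˣ) : D) =
              ((ρ p.1 : Dˣ) : D) * (((ρ q.1 : Dˣ) : D) * ((q.2⁻¹ : Dˣ) : D)) *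
                ((p.2⁻¹ : Dˣ) : D) := by
            simp [mul_assoc]
          have h2 := (hp1 _ hq2).units_inv_left
          rw [h1, mul_assoc, ← h2.eq, ← mul_assoc]
          exact mul_mem hp2 hq2
      one_mem' := by
        refine ⟨fun y _ => ?_, ?_⟩
        · simp
        · simp
      inv_mem' := by
        rintro p ⟨hp1, hp2⟩
        refine ⟨fun y hy => ?_, ?_⟩
        · simp only [Prod.snd_inv]
          exact (hp1 y hy).units_inv_left
        · have h1 := hMinv _ hp2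
          have h2 := hp1 _ h1
          have h3 : ((ρ p⁻¹.1 : Dˣ) : D) * (((p⁻¹.2)⁻¹ : Dˣ) : D) =
              ((p.2⁻¹ : Dˣ) : D) * ((((ρ p.1 : Dˣ) : D) * ((p.2⁻¹ : Dˣ) : D))⁻¹ * (p.2 : D)) := by
            simp [mul_assoc]
          rw [h3, ← h2.eq, ← mul_assoc, Units.inv_mul, one_mul]
          exact h1 }
  have hT : ∀ p : Γ × Dˣ, p ∈ T ↔ (∀ y ∈ M, Commute (p.2 : D) y) ∧
      ((ρ p.1 : Dˣ) : D) * ((p.2⁻¹ : Dˣ) : D) ∈ M := fun p => Iff.rfl
  set H : Subgroup Γ := T.map (MonoidHom.fst Γ Dˣ) with hH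
  have hHnormal : H.Normal := by
    constructor
    rintro _ ⟨⟨h, c⟩, hp, rfl⟩ x
    obtain ⟨hp1, hp2⟩ := (hT _).mp hp
    refine ⟨(x * h * x⁻¹, ρ x * c * (ρ x)⁻¹), ?_, rfl⟩
    refine (hT _).mpr ⟨fun y hy => ?_, ?_⟩
    · have h1 : cj (ρ x⁻¹) y ∈ M := hMnorm x⁻¹ y hy
      have h2 := hp1 _ h1
      have h3 : y = cj (ρ x) (cj (ρ x⁻¹) y) := by
        rw [map_inv, cj_inv_cancel]
      have h4 : ((ρ x * c * (ρ x)⁻¹ : Dˣ) : D) = cj (ρ x) (c : D) := by
        rw [cj_unit]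
      rw [h4, h3, ← cj_inv_cancel (ρ x) (cj (ρ x) (cj (ρ x⁻¹) y))]
      show Commute _ _
      rw [Commute, SemiconjBy, cj_inv_cancel, ← cj_mul, ← cj_mul, h2.eq]
    · have h1 : ((ρ (x * h * x⁻¹) : Dˣ) : D) * (((ρ x * c * (ρ x)⁻¹)⁻¹ : Dˣ) : D) =
          cj (ρ x) (((ρ h : Dˣ) : D) * ((c⁻¹ : Dˣ) : D)) := by
        simp [cj, mul_assoc]
      rw [h1]
      exact hMnorm x _ hp2
  have hNH : N ≤ H := by
    intro n hn
    refine ⟨(n, 1), ?_, rfl⟩
    refine (hT _).mpr ⟨fun y _ => by simp, ?_⟩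
    simp only [inv_one, Units.val_one, mul_one]
    exact mem_alg (Subgroup.mem_map_of_mem ρ hn)
  have htors : ∀ x : Γ, ∃ k : ℕ, 0 < k ∧ x ^ k ∈ H := by
    intro x
    obtain ⟨k, hk, c, hc1, hc2⟩ := exists_pow_centralizing M hMinv (ρ x)
      (Algebra.IsAlgebraic.isAlgebraic _) (hMnorm x)
      (by simpa using hMnorm x⁻¹)
    refine ⟨k, hk, (x ^ k, c), ?_, rfl⟩
    refine (hT _).mpr ⟨fun y hy => hc1 y hy, ?_⟩
    simpa using hc2
  have hfi : H.FiniteIndex := htf H hNH htors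
  have hHfg : H.FG := (Group.fg_iff_subgroup_fg H).mp (Subgroup.fg_of_index_ne_zero H)
  obtain ⟨SH, hSH⟩ := hHfg
  have hlift : ∀ s : Γ, ∃ c : Dˣ, s ∈ SH → (s, c) ∈ T := by
    intro s
    by_cases hs : s ∈ SH
    · have : s ∈ H := by rw [← hSH]; exact Subgroup.subset_closure hs
      obtain ⟨⟨s', c⟩, hp, hps⟩ := this
      simp only [MonoidHom.coe_fst] at hps
      subst hps
      exact ⟨c, fun _ => hp⟩
    · exact ⟨1, fun h => absurd h hs⟩
  choose c hc using hlift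
  set R : Subgroup (Γ × Dˣ) := Subgroup.closure ((SH.image (fun s => (s, c s)) : Finset (Γ × Dˣ)) :
    Set (Γ × Dˣ)) with hR
  have hRT : R ≤ T := by
    rw [hR, Subgroup.closure_le]
    intro p hp
    rw [Finset.mem_coe, Finset.mem_image] at hp
    obtain ⟨s, hs, rfl⟩ := hp
    exact hc s hs
  have hRfg : Group.FG R := Group.closure_finset_fg _
  -- apply the hypothesis on the quotient
  have hB : FDrep F ((MonoidHom.snd Γ Dˣ).comp R.subtype) := by
    refine hquot R ((QuotientGroup.mk' N).comp ((MonoidHom.fst Γ Dˣ).comp R.subtype)) _ ?_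
    intro x hx y
    rw [MonoidHom.mem_ker] at hx
    have hx1 : (x : Γ × Dˣ).1 ∈ N := by
      have : ((x : Γ × Dˣ).1 : Γ ⧸ N) = 1 := hx
      exact (QuotientGroup.eq_one_iff _).mp this
    have hxT := (hT _).mp (hRT x.2)
    have hyT := (hT _).mp (hRT y.2)
    have h1 : ((ρ (x : Γ × Dˣ).1 : Dˣ) : D) ∈ M := mem_alg (Subgroup.mem_map_of_mem ρ hx1)
    have h2 : (((x : Γ × Dˣ).2⁻¹ : Dˣ) : D) ∈ M := by
      have := mul_mem (hMinv _ h1) hxT.2
      rwa [← mul_assoc, inv_mul_cancel₀ (Units.ne_zero _), one_mul] at this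
    have h3 : (((x : Γ × Dˣ).2 : Dˣ) : D) ∈ M := by
      have := hMinv _ h2
      simpa using this
    have h4 := hyT.1 _ h3
    apply Commute.symm
    exact Units.ext h4.eq
  set B : Subalgebra F D := alg F ((((MonoidHom.snd Γ Dˣ).comp R.subtype).range : Subgroup Dˣ) :
    Set Dˣ) with hBdef
  have hBM : ∀ b ∈ B, ∀ y ∈ M, b * y = y * b := by
    intro b hb y hy
    have hle : B ≤ Subalgebra.centralizer F {y} := by
      refine Algebra.adjoin_le ?_
      rintro _ ⟨_, ⟨r, rfl⟩, rfl⟩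
      rw [SetLike.mem_coe, Subalgebra.mem_centralizer_iff]
      intro z hz
      rw [Set.mem_singleton_iff] at hz
      subst hz
      exact (((hT _).mp (hRT r.2)).1 z hy).eq.symm
    have := hle hb
    rw [Subalgebra.mem_centralizer_iff] at this
    exact (this y (Set.mem_singleton _)).symm
  -- the `M`-parts of the generators
  obtain ⟨SN, hSN, hSN'⟩ := exists_finset_of_mem_alg (F := F) ρ N
    (SH.image (fun s => ((ρ s : Dˣ) : D) * (((c s)⁻¹ : Dˣ) : D))) (by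
      intro x hx
      rw [Finset.mem_image] at hx
      obtain ⟨s, hs, rfl⟩ := hx
      exact ((hT _).mp (hc s hs)).2)
  set M₀ : Subalgebra F D := alg F ((Subgroup.closure (ρ '' (SN : Set Γ)) : Subgroup Dˣ) : Set Dˣ)
    with hM₀
  have hM₀fg : (Subalgebra.toSubmodule M₀).FG := hloc SN hSN
  have hM₀M : M₀ ≤ M := by
    refine alg_mono ?_
    have : Subgroup.closure (ρ '' (SN : Set Γ)) ≤ N.map ρ := by
      rw [Subgroup.closure_le]
      rintro _ ⟨s, hs, rfl⟩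
      exact Subgroup.mem_map_of_mem ρ (hSN hs)
    exact this
  have hcomm : Subalgebra.toSubmodule B * Subalgebra.toSubmodule M₀ ≤
      Subalgebra.toSubmodule M₀ * Subalgebra.toSubmodule B := by
    rw [Submodule.mul_le]
    intro b hb m hm
    rw [hBM b hb m (hM₀M hm)]
    exact Submodule.mul_mem_mul hm hb
  obtain ⟨C, hC⟩ := exists_subalgebra_mul M₀ B hcomm
  have hCfg : (Subalgebra.toSubmodule C).FG := by
    rw [hC]; exact hM₀fg.mul hB
  have hHC : FD F ((H.map ρ : Subgroup Dˣ) : Set Dˣ) := by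
    refine fg_of_le_fg hCfg ?_
    refine alg_le_of_le_unitsIn C (fun a ha => inv_mem_of_fg C hCfg ha) _ ?_
    rw [← hSH, MonoidHom.map_closure, Subgroup.closure_le]
    rintro _ ⟨s, hs, rfl⟩
    rw [SetLike.mem_coe, mem_unitsIn]
    have h1 : ((ρ s : Dˣ) : D) = ((ρ s : Dˣ) : D) * (((c s)⁻¹ : Dˣ) : D) * ((c s : Dˣ) : D) := by
      rw [mul_assoc, Units.inv_mul, mul_one]
    have h2 : ((ρ s : Dˣ) : D) * (((c s)⁻¹ : Dˣ) : D) ∈ M₀ :=
      hSN' _ (Finset.mem_image_of_mem _ hs)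
    have h3 : ((c s : Dˣ) : D) ∈ B := by
      refine mem_alg ?_
      refine ⟨⟨(s, c s), ?_⟩, rfl⟩
      rw [hR]
      exact Subgroup.subset_closure (Finset.mem_coe.mpr (Finset.mem_image_of_mem _ hs))
    have h4 : ((ρ s : Dˣ) : D) ∈ Subalgebra.toSubmodule C := by
      rw [hC, h1]
      exact Submodule.mul_mem_mul h2 h3
    exact h4
  exact FDrep_of_finiteIndex ρ H hHC

end Vale.Agent.H53.Kurosh
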