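import Vale.Agent.H53.Kurosh.Dickson
import Vale.Agent.H71.Kaplansky

/-!
# Descent of left algebraicity over a noncentral subfield to the centre

Let `D` be a division ring with centre `F` and `ι : K →+* D` a (not necessarily central) subfield.
If every conjugate `y * x * y⁻¹` of `x` satisfies a nonzero left polynomial relation of degree at
most `d` with coefficients in `K`, then `1, x, …, x ^ d` are linearly dependent over `F`.
-/

namespace Vale.Agent.H53.Kurosh

open Polynomial

universe u v w

variable {F : Type v} {D : Type u} [Field F] [DivisionRing D] [Algebra F D]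

lemma conj_pow_eq (y x : D) (hy : y ≠ 0) (n : ℕ) :
    (y * x * y⁻¹) ^ n = y * x ^ n * y⁻¹ := by
  induction n with
  | zero => simp [hy]
  | succ n ih =>
    rw [pow_succ, ih, pow_succ]
    calc y * x ^ n * y⁻¹ * (y * x * y⁻¹) = y * x ^ n * (y⁻¹ * y) * x * y⁻¹ := by
          simp only [mul_assoc]
      _ = y * (x ^ n * x) * y⁻¹ := by rw [inv_mul_cancel₀ hy]; simp only [mul_assoc, one_mul]

theorem not_linearIndependent_pow_of_forall_conj [Algebra.IsCentral F D] {K : Type w} [Field K]
    (ι : K →+* D) (d : ℕ) (x : D)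
    (h : ∀ y : D, y ≠ 0 → ∃ α : Fin (d + 1) → K, α ≠ 0 ∧
      ∑ i, ι (α i) * (y * x * y⁻¹) ^ (i : ℕ) = 0) :
    ¬ LinearIndependent F (fun i : Fin (d + 1) => x ^ (i : ℕ)) := by
  classical
  let _ : Module K D := Module.compHom D ι
  have hsmul : ∀ (k : K) (y : D), k • y = ι k * y := fun k y => rfl
  have : IsScalarTower K D D := ⟨fun k y z => by
    simp only [hsmul, smul_eq_mul, mul_assoc]⟩
  set T : Module.End K D := LinearMap.mulRight K x with hT
  have hTpow : ∀ (n : ℕ) (y : D), (T ^ n) y = y * x ^ n := by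
    intro n
    induction n with
    | zero => intro y; simp
    | succ n ih =>
      intro y
      rw [pow_succ, Module.End.mul_apply, ih, hT, LinearMap.mulRight_apply, pow_succ', mul_assoc]
  have haeval : ∀ (p : K[X]) (y : D), p.natDegree ≤ d →
      aeval T p y = ∑ i : Fin (d + 1), ι (p.coeff i) * y * x ^ (i : ℕ) := by
    intro p y hp
    rw [aeval_eq_sum_range' (Nat.lt_succ_of_le hp), LinearMap.sum_apply,
      Fin.sum_univ_eq_sum_range (fun i => ι (p.coeff i) * y * x ^ i) (d + 1)]
    refine Finset.sum_congr rfl fun i _ => ?_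
    rw [LinearMap.smul_apply, hTpow, hsmul, mul_assoc]
  have hloc : ∀ v : D, ∃ p : K[X], p ≠ 0 ∧ p.natDegree ≤ d ∧ aeval T p v = 0 := by
    intro y
    by_cases hy : y = 0
    · exact ⟨1, one_ne_zero, by simp, by simp [hy]⟩
    obtain ⟨α, hα, hsum⟩ := h y hy
    set p : K[X] := ∑ i : Fin (d + 1), monomial (i : ℕ) (α i) with hp
    have hcoeff : ∀ j : Fin (d + 1), p.coeff j = α j := by
      intro j
      rw [hp, finsetSum_coeff, Finset.sum_eq_single j]
      · simp
      · intro b _ hb
        rw [coeff_monomial, if_neg]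
        exact fun h' => hb (Fin.ext h')
      · simp
    have hdeg : p.natDegree ≤ d := by
      rw [hp]
      refine natDegree_sum_le_of_forall_le _ _ fun i _ => ?_
      exact (natDegree_monomial_le _).trans (Nat.lt_succ_iff.mp i.2)
    refine ⟨p, ?_, hdeg, ?_⟩
    · intro hp0
      apply hα
      funext j
      rw [← hcoeff j, hp0]
      simp
    · rw [haeval p y hdeg]
      have h2 := congrArg (fun t => t * y) hsum
      simp only [Finset.sum_mul, zero_mul] at h2
      rw [← h2]
      refine Finset.sum_congr rfl fun i _ => ?_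
      rw [hcoeff, conj_pow_eq y x hy]
      simp only [mul_assoc, inv_mul_cancel₀ hy, mul_one]
  obtain ⟨p, hp0, hpd, hpT⟩ := Vale.Agent.H71.exists_aeval_eq_zero_of_locally T d hloc
  intro hli
  have key : ∀ y : D, ∑ i : Fin (d + 1), ι (p.coeff i) * y * x ^ (i : ℕ) = 0 := by
    intro y
    rw [← haeval p y hpd, hpT]
    simp
  have hz := eq_zero_of_forall_sum_mul_mul_eq_zero (fun i : Fin (d + 1) => x ^ (i : ℕ)) hli
    Finset.univ (fun i => ι (p.coeff i)) key
  apply hp0
  ext n
  rw [coeff_zero]
  by_cases hn : n < d + 1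
  · have := hz ⟨n, hn⟩ (Finset.mem_univ _)
    exact (map_eq_zero ι).mp this
  · exact coeff_eq_zero_of_natDegree_lt (lt_of_le_of_lt hpd (by omega))

end Vale.Agent.H53.Kurosh
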