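import Vale.Agent.H53.Kurosh.Basic

/-!
# Conjugacy of roots of a minimal polynomial (Dickson) and a normalizing element

Let `D` be a division ring with centre `F`.

* `eq_zero_of_forall_sum_mul_mul_eq_zero`: if `e j` are `F`-linearly independent and
  `∑ j, d j * y * e j = 0` for every `y`, then all `d j` vanish.
* `exists_conj_of_root`: if `b` is a root of the minimal polynomial of an algebraic element `a`,
  then `b * x = x * a` for some nonzero `x`.
* `exists_fg_noncomm`: if moreover `b = p(a)` is a polynomial in `a` different from `a`, and `D`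
  is algebraic over `F`, then `a` lies in a finite-dimensional subalgebra which is not
  commutative.
* `surjective_algebraMap_of_forall_comm`: the resulting commutativity theorem.
-/

namespace Vale.Agent.H53.Kurosh

universe u v

open Polynomial

variable {F : Type v} {D : Type u} [Field F] [DivisionRing D] [Algebra F D]

theorem eq_zero_of_forall_sum_mul_mul_eq_zero [Algebra.IsCentral F D] {ι : Type*}
    [DecidableEq ι] (e : ι → D) (he : LinearIndependent F e) (s : Finset ι) :
    ∀ d : ι → D, (∀ y : D, ∑ j ∈ s, d j * y * e j = 0) → ∀ j ∈ s, d j = 0 := by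
  induction s using Finset.induction_on with
  | empty => intro d _ j hj; simp at hj
  | insert j₀ s hj₀ ih =>
    intro d h
    by_cases h0 : d j₀ = 0
    · have hs : ∀ y : D, ∑ j ∈ s, d j * y * e j = 0 := by
        intro y
        have := h y
        rw [Finset.sum_insert hj₀, h0] at this
        simpa using this
      intro j hj
      rcases Finset.mem_insert.mp hj with rfl | hj
      · exact h0
      · exact ih d hs j hj
    · exfalso
      set d' : ι → D := fun j => (d j₀)⁻¹ * d j with hd'
      have h' : ∀ y : D, ∑ j ∈ insert j₀ s, d' j * y * e j = 0 := by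
        intro y
        have := congrArg (fun t => (d j₀)⁻¹ * t) (h y)
        simp only [Finset.mul_sum, mul_zero] at this
        rw [← this]
        refine Finset.sum_congr rfl fun j _ => ?_
        simp only [hd', mul_assoc]
      have hd'0 : d' j₀ = 1 := inv_mul_cancel₀ h0
      have hc : ∀ z : D, ∀ j ∈ s, d' j * z - z * d' j = 0 := by
        intro z
        apply ih (fun j => d' j * z - z * d' j)
        intro y
        have h1 := h' (z * y)
        have h2 := congrArg (fun t => z * t) (h' y)
        simp only [Finset.mul_sum, mul_zero] at h2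
        rw [Finset.sum_insert hj₀, hd'0] at h1 h2
        have e3 : ∑ j ∈ s, (d' j * z - z * d' j) * y * e j
            = (∑ j ∈ s, d' j * (z * y) * e j) - ∑ j ∈ s, z * (d' j * y * e j) := by
          rw [← Finset.sum_sub_distrib]
          refine Finset.sum_congr rfl fun j _ => ?_
          noncomm_ring
        rw [e3]
        have e4 : (1 : D) * (z * y) * e j₀ = z * (1 * y * e j₀) := by noncomm_ring
        rw [e4] at h1
        exact sub_eq_zero.mpr (add_left_cancel (h1.trans h2.symm))
      have hcen : ∀ j ∈ s, ∃ c : F, algebraMap F D c = d' j := by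
        intro j hj
        have hmem : d' j ∈ Subalgebra.center F D := by
          rw [Subalgebra.mem_center_iff]
          intro z
          exact (sub_eq_zero.mp (hc z j hj)).symm
        exact Algebra.mem_bot.mp (Algebra.IsCentral.out hmem)
      choose! c hc' using hcen
      have h1 := h' 1
      rw [Finset.sum_insert hj₀, hd'0] at h1
      have hsum : ∑ j ∈ insert j₀ s, (if j = j₀ then (1 : F) else c j) • e j = 0 := by
        rw [Finset.sum_insert hj₀]
        simp only [if_true, one_smul]
        have e5 : ∑ j ∈ s, (if j = j₀ then (1 : F) else c j) • e j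
            = ∑ j ∈ s, d' j * 1 * e j := by
          refine Finset.sum_congr rfl fun j hj => ?_
          have hne : j ≠ j₀ := fun hh => hj₀ (hh ▸ hj)
          rw [if_neg hne, Algebra.smul_def, hc' j hj, mul_one]
        rw [e5]
        simpa using h1
      have := linearIndependent_iff'.mp he (insert j₀ s) _ hsum j₀ (Finset.mem_insert_self _ _)
      simp at this

/-- **Dickson's theorem.** In a division ring with centre `F`, a root `b` of the minimal
polynomial of an algebraic element `a` is conjugate to `a`. -/
theorem exists_conj_of_root [Algebra.IsCentral F D] (a b : D) (ha : IsIntegral F a)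
    (hb : aeval b (minpoly F a) = 0) : ∃ x : D, x ≠ 0 ∧ b * x = x * a := by
  classical
  set f := minpoly F a with hf
  set n := f.natDegree with hn
  have hmonic : f.Monic := minpoly.monic ha
  have hnpos : 0 < n := minpoly.natDegree_pos ha
  let P : ℕ → F[X] := fun j => divX^[j] f
  have hP_succ : ∀ j, P (j + 1) = divX (P j) := fun j => Function.iterate_succ_apply' _ _ _
  have hP_coeff : ∀ j m, (P j).coeff m = f.coeff (m + j) := by
    intro j
    induction j with
    | zero => intro m; simp [P]
    | succ j ih =>
      intro m
      rw [hP_succ, coeff_divX, ih]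
      congr 1
      omega
  have hP_rec : ∀ j, P j = X * P (j + 1) + C (f.coeff j) := by
    intro j
    have h1 := divX_mul_X_add (P j)
    rw [hP_coeff j 0, zero_add, ← hP_succ, mul_comm] at h1
    exact h1.symm
  have hPn : P n = 1 := by
    ext m
    rw [hP_coeff, coeff_one]
    by_cases hm : m = 0
    · subst hm
      simp only [zero_add, if_true]
      exact hmonic.coeff_natDegree
    · rw [if_neg hm]
      exact coeff_eq_zero_of_natDegree_lt (by omega)
  let d : ℕ → D := fun j => aeval b (P (j + 1))
  have hd_rec : ∀ j, b * d j = aeval b (P j) - algebraMap F D (f.coeff j) := by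
    intro j
    have h1 := congrArg (aeval b) (hP_rec j)
    rw [map_add, map_mul, aeval_X, aeval_C] at h1
    rw [h1]
    simp [d]
  let H : D → D := fun y => ∑ j ∈ Finset.range n, d j * y * a ^ j
  let T : D → ℕ → D := fun y j => aeval b (P j) * y * a ^ j
  have hfa : ∑ j ∈ Finset.range n, f.coeff j • a ^ j = - a ^ n := by
    have h1 : aeval a f = 0 := minpoly.aeval F a
    rw [aeval_eq_sum_range, Finset.sum_range_succ, ← hn, hmonic.coeff_natDegree, one_smul] at h1
    exact eq_neg_of_add_eq_zero_left h1
  have key : ∀ y, b * H y = H y * a := by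
    intro y
    have e1 : b * H y = ∑ j ∈ Finset.range n, (T y j - algebraMap F D (f.coeff j) * y * a ^ j) := by
      simp only [H, Finset.mul_sum]
      refine Finset.sum_congr rfl fun j _ => ?_
      rw [← mul_assoc, ← mul_assoc, hd_rec, sub_mul, sub_mul]
    have e2 : H y * a = ∑ j ∈ Finset.range n, T y (j + 1) := by
      simp only [H, Finset.sum_mul]
      refine Finset.sum_congr rfl fun j _ => ?_
      simp only [T, d]
      rw [mul_assoc, ← pow_succ]
    have e3 : ∑ j ∈ Finset.range n, algebraMap F D (f.coeff j) * y * a ^ j = - (y * a ^ n) := by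
      have : ∀ j ∈ Finset.range n, algebraMap F D (f.coeff j) * y * a ^ j
          = y * (f.coeff j • a ^ j) := by
        intro j _
        rw [Algebra.commutes, mul_assoc, Algebra.smul_def]
      rw [Finset.sum_congr rfl this, ← Finset.mul_sum, hfa, mul_neg]
    have e4 : ∑ j ∈ Finset.range n, (T y j - T y (j + 1)) = T y 0 - T y n :=
      Finset.sum_range_sub' _ _
    have hT0 : T y 0 = 0 := by
      simp only [T, P, Function.iterate_zero, id, pow_zero, mul_one]
      rw [hb, zero_mul]
    have hTn : T y n = y * a ^ n := by
      simp only [T]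
      rw [hPn, map_one, one_mul]
    rw [← sub_eq_zero, e1, e2, Finset.sum_sub_distrib, e3]
    have e5 : ∑ j ∈ Finset.range n, T y j - ∑ j ∈ Finset.range n, T y (j + 1)
        = 0 - y * a ^ n := by
      rw [← Finset.sum_sub_distrib, e4, hT0, hTn]
    have e6 : ∑ j ∈ Finset.range n, T y j
        = ∑ j ∈ Finset.range n, T y (j + 1) + (0 - y * a ^ n) := by
      rw [← e5]; abel
    rw [e6]
    abel
  by_contra hcon
  push Not at hcon
  have hH0 : ∀ y, H y = 0 := by
    intro y
    by_contra hy
    exact hy (by
      by_contra hy'
      exact absurd (key y) (hcon (H y) hy'))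
  have hlin : LinearIndependent F fun i : Fin n => a ^ (i : ℕ) := linearIndependent_pow a
  have hall := eq_zero_of_forall_sum_mul_mul_eq_zero (F := F) (fun i : Fin n => a ^ (i : ℕ)) hlin
    Finset.univ (fun i : Fin n => d i) (by
      intro y
      have := hH0 y
      simp only [H] at this
      rw [Finset.sum_range] at this
      exact this)
  have h1 := hall ⟨n - 1, by omega⟩ (Finset.mem_univ _)
  simp only [d] at h1
  have h2 : n - 1 + 1 = n := by omega
  rw [h2, hPn, map_one] at h1
  exact one_ne_zero h1

/-- If `p(a) ≠ a` is another root of the minimal polynomial of `a`, then `a` lies in a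
finite-dimensional subalgebra which is not commutative. -/
theorem exists_fg_noncomm [Algebra.IsCentral F D] [Algebra.IsAlgebraic F D] (a : D) (p : F[X])
    (hdvd : minpoly F a ∣ (minpoly F a).comp p) (hne : aeval a p ≠ a) :
    ∃ C : Subalgebra F D, (Subalgebra.toSubmodule C).FG ∧ a ∈ C ∧ ∃ x ∈ C, x * a ≠ a * x := by
  have ha : IsIntegral F a := (Algebra.IsAlgebraic.isAlgebraic a).isIntegral
  set b := aeval a p with hb
  have hbroot : aeval b (minpoly F a) = 0 := by
    obtain ⟨q, hq⟩ := hdvd
    rw [hb, ← aeval_comp, hq, map_mul, minpoly.aeval, zero_mul]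
  obtain ⟨x, hx0, hx⟩ := exists_conj_of_root a b ha hbroot
  set g : Dˣ := Units.mk0 x hx0 with hg
  set A : Subalgebra F D := Algebra.adjoin F {a} with hA
  have hAfg : (Subalgebra.toSubmodule A).FG := ha.fg_adjoin_singleton
  have hbA : b ∈ A := aeval_mem_adjoin_singleton F a
  have hcja : cj g a = b := by
    simp only [cj, hg, Units.val_mk0, Units.val_inv_eq_inv_val]
    rw [← hx, mul_assoc, mul_inv_cancel₀ hx0, mul_one]
  have hnorm : ∀ c ∈ A, cj g c ∈ A := by
    intro c hc
    induction hc using Algebra.adjoin_induction with
    | mem y hy =>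
      rw [Set.mem_singleton_iff] at hy
      rw [hy, hcja]
      exact hbA
    | algebraMap r =>
      rw [cj_algebraMap]
      exact Subalgebra.algebraMap_mem _ _
    | add y z _ _ hy hz => rw [cj_add]; exact add_mem hy hz
    | mul y z _ _ hy hz => rw [cj_mul]; exact mul_mem hy hz
  obtain ⟨C, hCfg, hAC, hgC⟩ := exists_fg_of_normalizing A hAfg g
    (Algebra.IsAlgebraic.isAlgebraic _) hnorm
  refine ⟨C, hCfg, hAC (Algebra.subset_adjoin (Set.mem_singleton _)), x, ?_, ?_⟩
  · simpa [hg] using hgC
  · intro hcomm
    rw [← hx] at hcomm
    exact hne (mul_right_cancel₀ hx0 hcomm)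

/-- Commutativity of algebraic division rings whose centre has no rigid finite extensions and no
noncommutative finite-dimensional division algebras. -/
theorem surjective_algebraMap_of_forall_comm [Algebra.IsCentral F D] [Algebra.IsAlgebraic F D]
    (hAut : ∀ f : F[X], Irreducible f → 2 ≤ f.natDegree →
      ∃ p : F[X], f ∣ f.comp p ∧ ¬ f ∣ p - X)
    (hBr : ∀ (E : Type u) [Ring E] [IsDomain E] [Algebra F E] [Module.Finite F E],
      ∀ x y : E, x * y = y * x) :
    Function.Surjective (algebraMap F D) := by
  intro a
  by_contra hcon
  have ha : IsIntegral F a := (Algebra.IsAlgebraic.isAlgebraic a).isIntegral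
  have hdeg : 2 ≤ (minpoly F a).natDegree := by
    rw [minpoly.two_le_natDegree_iff ha]
    intro hmem
    exact hcon (RingHom.mem_range.mp hmem)
  obtain ⟨p, hp1, hp2⟩ := hAut (minpoly F a) (minpoly.irreducible ha) hdeg
  have hne : aeval a p ≠ a := by
    intro h
    apply hp2
    apply minpoly.dvd
    rw [map_sub, aeval_X, h, sub_self]
  obtain ⟨C, hCfg, haC, x, hxC, hxa⟩ := exists_fg_noncomm a p hp1 hne
  have : Module.Finite F C := Module.Finite.iff_fg.mpr hCfg
  have h := hBr C ⟨x, hxC⟩ ⟨a, haC⟩
  exact hxa (congrArg Subtype.val h)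

end Vale.Agent.H53.Kurosh
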