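import Vale.Agent.H53.Kurosh.Basic

/-!
# The inner-power lemma

If an algebraic unit `g` normalizes a division subalgebra `M`, then some positive power of `g`
acts on `M` as an inner automorphism of `M`.
-/

namespace Vale.Agent.H53.Kurosh

universe u v

variable {F : Type v} {D : Type u} [Field F] [DivisionRing D] [Algebra F D]

theorem exists_pow_inner (M : Subalgebra F D) (hinv : ∀ m ∈ M, m⁻¹ ∈ M) (g : Dˣ)
    (hg : IsAlgebraic F (g : D))
    (hnorm : ∀ m ∈ M, cj g m ∈ M) (hnorm' : ∀ m ∈ M, cj g⁻¹ m ∈ M) :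
    ∃ k : ℕ, 0 < k ∧ ∃ w ∈ M, w ≠ 0 ∧
      ∀ y ∈ M, w * ((g ^ k : Dˣ) : D) * y = y * (w * ((g ^ k : Dˣ) : D)) := by
  classical
  let P : Finset ℕ → (ℕ → D) → Prop := fun I m =>
    I.Nonempty ∧ (∀ i ∈ I, m i ∈ M ∧ m i ≠ 0) ∧ ∑ i ∈ I, m i * ((g ^ i : Dˣ) : D) = 0
  have hex : ∃ n, ∃ I m, P I m ∧ I.card = n := by
    obtain ⟨p, hp0, hp⟩ := hg
    refine ⟨_, p.support, fun i => algebraMap F D (p.coeff i), ⟨?_, ?_, ?_⟩, rfl⟩
    · exact Polynomial.support_nonempty.mpr hp0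
    · intro i hi
      refine ⟨Subalgebra.algebraMap_mem _ _, ?_⟩
      rw [Polynomial.mem_support_iff] at hi
      simpa using hi
    · rw [Polynomial.aeval_def, Polynomial.eval₂_eq_sum, Polynomial.sum_def] at hp
      simpa using hp
  obtain ⟨I, m, hP, hcard⟩ := Nat.find_spec hex
  have hmin : ∀ I' m', P I' m' → I.card ≤ I'.card := by
    intro I' m' h'
    rw [hcard]
    exact Nat.find_min' hex ⟨I', m', h', rfl⟩
  set i₀ := I.min' hP.1 with hi₀
  have hi₀I : i₀ ∈ I := Finset.min'_mem I hP.1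
  set a := m i₀ with ha_def
  have ha : a ∈ M := (hP.2.1 i₀ hi₀I).1
  have ha0 : a ≠ 0 := (hP.2.1 i₀ hi₀I).2
  have key : ∀ x ∈ M, ∀ i ∈ I, m i * cj (g ^ i) x = a * cj (g ^ i₀) x * a⁻¹ * m i := by
    intro x hx
    by_contra hcon
    push Not at hcon
    let m' : ℕ → D := fun i => m i * cj (g ^ i) x - a * cj (g ^ i₀) x * a⁻¹ * m i
    let I' := I.filter (fun i => m' i ≠ 0)
    have hI'ne : I'.Nonempty := by
      obtain ⟨i, hi, hne⟩ := hcon
      exact ⟨i, Finset.mem_filter.mpr ⟨hi, sub_ne_zero.mpr hne⟩⟩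
    have hP' : P I' m' := by
      refine ⟨hI'ne, ?_, ?_⟩
      · intro i hi
        rw [Finset.mem_filter] at hi
        refine ⟨?_, hi.2⟩
        have h1 := (hP.2.1 i hi.1).1
        exact sub_mem (mul_mem h1 (cj_pow_mem M g hnorm i x hx))
          (mul_mem (mul_mem (mul_mem ha (cj_pow_mem M g hnorm i₀ x hx)) (hinv a ha)) h1)
      · rw [Finset.sum_filter_of_ne]
        · have h2 : ∀ i ∈ I, m' i * ((g ^ i : Dˣ) : D) =
              m i * ((g ^ i : Dˣ) : D) * x -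
                a * cj (g ^ i₀) x * a⁻¹ * (m i * ((g ^ i : Dˣ) : D)) := by
            intro i _
            simp only [m', sub_mul, mul_assoc, cj_mul_self]
          rw [Finset.sum_congr rfl h2, Finset.sum_sub_distrib, ← Finset.sum_mul, ← Finset.mul_sum,
            hP.2.2]
          simp
        · intro i _ hne
          exact left_ne_zero_of_mul hne
    have hcard' : I'.card < I.card := by
      apply Finset.card_lt_card
      refine ⟨Finset.filter_subset _ _, ?_⟩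
      intro hsub
      have h3 := hsub hi₀I
      rw [Finset.mem_filter] at h3
      apply h3.2
      simp only [m']
      rw [← ha_def, mul_assoc (a * cj (g ^ i₀) x), inv_mul_cancel₀ ha0, mul_one, sub_self]
    exact absurd (hmin I' m' hP') (not_le.mpr hcard')
  have hex2 : ∃ i₁ ∈ I, i₁ ≠ i₀ := by
    by_contra hcon
    push Not at hcon
    have hI : I = {i₀} := Finset.eq_singleton_iff_unique_mem.mpr ⟨hi₀I, hcon⟩
    have hsum := hP.2.2
    rw [hI, Finset.sum_singleton] at hsum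
    exact ha0 ((Units.mul_left_eq_zero _).mp hsum)
  obtain ⟨i₁, hi₁, hne⟩ := hex2
  have hlt : i₀ < i₁ := lt_of_le_of_ne (Finset.min'_le I i₁ hi₁) (Ne.symm hne)
  have hb : m i₁ ∈ M := (hP.2.1 i₁ hi₁).1
  have hb0 : m i₁ ≠ 0 := (hP.2.1 i₁ hi₁).2
  refine ⟨i₁ - i₀, Nat.sub_pos_of_lt hlt, a⁻¹ * m i₁, mul_mem (hinv a ha) hb,
    mul_ne_zero (inv_ne_zero ha0) hb0, ?_⟩
  intro y hy
  have hx : cj (g⁻¹ ^ i₀) y ∈ M := cj_pow_mem M g⁻¹ hnorm' i₀ y hy
  have h1 := key _ hx i₁ hi₁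
  have e1 : cj (g ^ i₁) (cj (g⁻¹ ^ i₀) y) = cj (g ^ (i₁ - i₀)) y := by
    rw [← cj_comp]
    congr 1
    rw [inv_pow, ← pow_sub g hlt.le]
  have e0 : cj (g ^ i₀) (cj (g⁻¹ ^ i₀) y) = y := by
    rw [← cj_comp, inv_pow, mul_inv_cancel, cj_one_left]
  rw [e1, e0] at h1
  calc a⁻¹ * m i₁ * ((g ^ (i₁ - i₀) : Dˣ) : D) * y
      = a⁻¹ * (m i₁ * cj (g ^ (i₁ - i₀)) y) * ((g ^ (i₁ - i₀) : Dˣ) : D) := by
        simp only [mul_assoc, cj_mul_self]
    _ = a⁻¹ * (a * y * a⁻¹ * m i₁) * ((g ^ (i₁ - i₀) : Dˣ) : D) := by rw [h1]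
    _ = y * (a⁻¹ * m i₁ * ((g ^ (i₁ - i₀) : Dˣ) : D)) := by
        simp only [mul_assoc]
        rw [inv_mul_cancel_left₀ ha0]

/-- Unit form of the inner-power lemma: some positive power of `g` is the product of an element
of `M` and a unit centralizing `M`. -/
theorem exists_pow_centralizing (M : Subalgebra F D) (hinv : ∀ m ∈ M, m⁻¹ ∈ M) (g : Dˣ)
    (hg : IsAlgebraic F (g : D))
    (hnorm : ∀ m ∈ M, cj g m ∈ M) (hnorm' : ∀ m ∈ M, cj g⁻¹ m ∈ M) :
    ∃ k : ℕ, 0 < k ∧ ∃ c : Dˣ, (∀ y ∈ M, (c : D) * y = y * (c : D)) ∧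
      ((g ^ k : Dˣ) : D) * ((c⁻¹ : Dˣ) : D) ∈ M := by
  obtain ⟨k, hk, w, hw, hw0, hcomm⟩ := exists_pow_inner M hinv g hg hnorm hnorm'
  refine ⟨k, hk, Units.mk0 w hw0 * g ^ k, ?_, ?_⟩
  · intro y hy
    simpa using hcomm y hy
  · have : ((g ^ k : Dˣ) : D) * (((Units.mk0 w hw0 * g ^ k)⁻¹ : Dˣ) : D) = w⁻¹ := by
      rw [mul_inv_rev, Units.val_mul, ← mul_assoc, Units.mul_inv, one_mul]
      simp
    rw [this]
    exact hinv w hw

end Vale.Agent.H53.Kurosh
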