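import Vale.Agent.H53.Kurosh.Commutators
import Vale.Agent.H28.KuroshStep
import Vale.Agent.H76.KuroshChain

/-!
# Division rings with a noncentral normal subgroup that is left algebraic of bounded degree
-/

namespace Vale.Agent.H53.Kurosh

open Polynomial

universe u v w

variable {F : Type v} {D : Type u} [Field F] [DivisionRing D] [Algebra F D]

/-- Reduction to a maximal subfield: if for every maximal subfield `K` (acting on `D` by left
multiplication and containing the centre) there is no `K`-independent family of `M + 1` elements,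
then `[D : F] ≤ M ^ 2`. -/
theorem finite_of_forall_maximal [Algebra.IsCentral F D] (M : ℕ)
    (H : ∀ (K : Type u) [Field K] [Module K D] [IsScalarTower K D D],
      (∀ c : D, (∀ k : K, c * (k • (1 : D)) = (k • (1 : D)) * c) → ∃ k : K, k • (1 : D) = c) →
      (∀ t : F, ∃ k : K, ∀ y : D, k • y = t • y) →
      ∀ v : Fin (M + 1) → D, ¬ LinearIndependent K v) :
    Module.Finite F D ∧ Module.finrank F D ≤ M ^ 2 := by
  classical
  obtain ⟨L, hLcomm, hLmax⟩ := Vale.Agent.H56.exists_maximal_subfield D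
  let instL : Field L := { (inferInstance : DivisionRing L) with
    mul_comm := fun a b => Subtype.ext (hLcomm a a.2 b b.2) }
  let ι : L →+* D :=
    { toFun := Subtype.val
      map_one' := rfl
      map_mul' := fun _ _ => rfl
      map_zero' := rfl
      map_add' := fun _ _ => rfl }
  let instM : Module L D := Module.compHom D ι
  have hsmul : ∀ (k : L) (y : D), k • y = (k : D) * y := fun k y => rfl
  have instT : IsScalarTower L D D := ⟨fun k y z => by
    simp only [hsmul, smul_eq_mul, mul_assoc]⟩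
  have hmax : ∀ c : D, (∀ k : L, c * (k • (1 : D)) = (k • (1 : D)) * c) →
      ∃ k : L, k • (1 : D) = c := by
    intro c hc
    have hcL : c ∈ L := hLmax c fun a ha => by
      have := hc ⟨a, ha⟩
      simpa [hsmul] using this
    exact ⟨⟨c, hcL⟩, by simp [hsmul]⟩
  have hFL : ∀ t : F, algebraMap F D t ∈ L := fun t => hLmax _ fun a _ => Algebra.commutes t a
  have hFK : ∀ t : F, ∃ k : L, ∀ y : D, k • y = t • y := fun t =>
    ⟨⟨algebraMap F D t, hFL t⟩, fun y => by rw [hsmul, Algebra.smul_def]⟩
  have hno := H L hmax hFK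
  have hrank : Module.rank L D ≤ M := by
    apply rank_le
    intro S hS
    by_contra hcard
    have hcard' : M + 1 ≤ S.card := by omega
    apply hno (fun i : Fin (M + 1) => ((S.equivFin.symm (Fin.castLE hcard' i) : S) : D))
    exact hS.comp (fun i : Fin (M + 1) => S.equivFin.symm (Fin.castLE hcard' i))
      (S.equivFin.symm.injective.comp (Fin.castLE_injective hcard'))
  have : Module.Finite L D := Module.rank_lt_aleph0_iff.mp
    (lt_of_le_of_lt hrank Cardinal.natCast_lt_aleph0)
  have hfin : Module.finrank L D ≤ M := Module.finrank_le_of_rank_le hrank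
  obtain ⟨h1, h2⟩ := Vale.Agent.H7.finite_and_finrank_le_sq (F := F) (K := L) (D := D)
  exact ⟨h1, h2.trans (Nat.pow_le_pow_left hfin 2)⟩


/-- Over a maximal subfield `K`: if all commutators of conjugates of a fixed noncentral `x` with
arbitrary elements have degree at most `d` over the infinite centre `F`, there is no
`K`-independent family of `4 d + 2` elements. -/
lemma not_linearIndependent_of_conj_commutators [Infinite F] (d : ℕ) (x : D)
    (hx : ∃ a : D, a * x ≠ x * a)
    (h : ∀ g y : D, g ≠ 0 → DegLE F d ((g * x * g⁻¹) * y - y * (g * x * g⁻¹)))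
    {K : Type w} [Field K] [Module K D] [IsScalarTower K D D]
    (hmax : ∀ c : D, (∀ k : K, c * (k • (1 : D)) = (k • (1 : D)) * c) → ∃ k : K, k • (1 : D) = c)
    (hFK : ∀ t : F, ∃ k : K, ∀ y : D, k • y = t • y)
    (v : Fin (4 * d + 2) → D) : ¬ LinearIndependent K v := by
  classical
  intro hv
  choose κ hκsmul using hFK
  have hκinj : Function.Injective κ := by
    intro s t hst
    have h1 := hκsmul s 1
    rw [hst, hκsmul t 1] at h1
    have h2 : algebraMap F D t = algebraMap F D s := by
      simpa [Algebra.smul_def] using h1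
    exact ((algebraMap F D).injective h2).symm
  obtain ⟨u, hu, hpat⟩ := Vale.Agent.H76.exists_chain x
    (fun W n _ h1 h2 => Vale.Agent.H28.exists_indep_pair_mod x hx W n h1 h2) d
    ⟨v, hv⟩
  obtain ⟨Y, hY, hYu⟩ := Vale.Agent.H78.exists_mem_span_mulRight_apply_eq hmax u hu
    (fun i => if hi : (i : ℕ) % 2 = 1 ∧ (i : ℕ) + 1 < 2 * (d + 1) then u ⟨(i : ℕ) + 1, hi.2⟩
      else 0)
  set X : Module.End K D := LinearMap.mulRight K x with hX
  have hZ : ∀ (j : ℕ) (hj : 2 * j + 2 < 2 * (d + 1)),
      (Y * X - X * Y) (u ⟨2 * j, by omega⟩) = u ⟨2 * j + 2, hj⟩ := by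
    intro j hj
    simp only [LinearMap.sub_apply, Module.End.mul_apply, hX, LinearMap.mulRight_apply]
    rw [← hpat j (by omega), hYu, hYu, dif_pos ⟨by simp [Nat.add_mod], by simpa using hj⟩,
      dif_neg (by simp), zero_mul, sub_zero]
  have hZpow : ∀ (b : ℕ) (hb : 2 * b < 2 * (d + 1)),
      ((Y * X - X * Y) ^ b) (u ⟨0, by omega⟩) = u ⟨2 * b, hb⟩ := by
    intro b
    induction b with
    | zero => intro _; simp
    | succ b ih =>
      intro hb
      rw [pow_succ', Module.End.mul_apply, ih (by omega), hZ b (by omega)]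
      rfl
  obtain ⟨c, hc⟩ := (Finsupp.mem_span_range_iff_exists_finsupp).mp hY
  let q : c.support → MvPolynomial D K := fun t => MvPolynomial.X (t : D)
  let B : c.support → Module.End K D := fun t =>
    LinearMap.mulRight K (t : D) * X - X * LinearMap.mulRight K (t : D)
  have hZs : ∀ s : D → K, ∑ t, MvPolynomial.eval s (q t) • B t
      = (∑ i ∈ c.support, s i • LinearMap.mulRight K i) * X
        - X * (∑ i ∈ c.support, s i • LinearMap.mulRight K i) := by
    intro s
    rw [Finset.sum_mul, Finset.mul_sum, ← Finset.sum_sub_distrib, ← Finset.sum_coe_sort c.support]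
    refine Finset.sum_congr rfl fun i _ => ?_
    simp only [q, B, MvPolynomial.eval_X, smul_sub, smul_mul_assoc, mul_smul_comm]
  have hs₀ : ∑ t, MvPolynomial.eval (c : D → K) (q t) • B t = Y * X - X * Y := by
    rw [hZs, ← hc]
    rfl
  have h0 : LinearIndependent K (fun b : Fin (d + 1) =>
      ((∑ t, MvPolynomial.eval (c : D → K) (q t) • B t) ^ (b : ℕ)) (u ⟨0, by omega⟩)) := by
    have e : (fun b : Fin (d + 1) =>
        ((∑ t, MvPolynomial.eval (c : D → K) (q t) • B t) ^ (b : ℕ)) (u ⟨0, by omega⟩))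
        = u ∘ (fun b : Fin (d + 1) => (⟨2 * (b : ℕ), by omega⟩ : Fin (2 * (d + 1)))) := by
      funext b
      rw [hs₀, hZpow b (by omega)]
      rfl
    rw [e]
    refine hu.comp _ ?_
    intro b₁ b₂ hb
    have : 2 * (b₁ : ℕ) = 2 * (b₂ : ℕ) := congrArg Fin.val hb
    exact Fin.ext (by omega)
  have hS : (Set.range κ).Infinite := Set.infinite_range_of_injective hκinj
  obtain ⟨s, hs, hind⟩ := Vale.Agent.H97.exists_generic_cyclic q B (u ⟨0, by omega⟩) (d + 1)
    (Set.range κ) hS (c : D → K) h0
  choose t ht using hs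
  set y : D := ∑ i ∈ c.support, t i • i with hy
  have hR : ∑ i ∈ c.support, s i • LinearMap.mulRight K i = LinearMap.mulRight K y := by
    ext w
    rw [LinearMap.sum_apply, LinearMap.mulRight_apply, hy, Finset.mul_sum]
    refine Finset.sum_congr rfl fun i _ => ?_
    rw [LinearMap.smul_apply, LinearMap.mulRight_apply, ← ht, hκsmul, mul_smul_comm]
  set z : D := x * y - y * x with hz
  have hZz : ∑ t, MvPolynomial.eval s (q t) • B t = LinearMap.mulRight K z := by
    rw [hZs, hR]
    ext w
    simp only [LinearMap.sub_apply, Module.End.mul_apply, LinearMap.mulRight_apply, hz, hX,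
      mul_sub, mul_assoc]
  set g : D := u ⟨0, by omega⟩ with hg
  have hg0 : g ≠ 0 := hu.ne_zero _
  have hind2 : LinearIndependent K (fun b : Fin (d + 1) => g * z ^ (b : ℕ)) := by
    have e : (fun b : Fin (d + 1) =>
        ((∑ t, MvPolynomial.eval s (q t) • B t) ^ (b : ℕ)) g)
        = fun b : Fin (d + 1) => g * z ^ (b : ℕ) := by
      funext b
      rw [hZz, mulRight_pow_apply]
    rw [e] at hind
    exact hind
  have hu' : (g * x * g⁻¹) * (g * y * g⁻¹) - (g * y * g⁻¹) * (g * x * g⁻¹) = g * z * g⁻¹ := by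
    rw [hz]
    have e1 : g * x * g⁻¹ * (g * y * g⁻¹) = g * (x * y) * g⁻¹ := by
      simp only [mul_assoc, inv_mul_cancel_left₀ hg0]
    have e2 : g * y * g⁻¹ * (g * x * g⁻¹) = g * (y * x) * g⁻¹ := by
      simp only [mul_assoc, inv_mul_cancel_left₀ hg0]
    rw [e1, e2, mul_sub, sub_mul]
  apply h g (g * y * g⁻¹) hg0
  rw [hu']
  have hind3 : LinearIndependent K (fun b : Fin (d + 1) => (g * z * g⁻¹) ^ (b : ℕ)) := by
    have hker : LinearMap.ker (LinearMap.mulRight K g⁻¹) = ⊥ := by
      rw [LinearMap.ker_eq_bot]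
      intro y₁ y₂ hy'
      simp only [LinearMap.mulRight_apply] at hy'
      exact mul_right_cancel₀ (inv_ne_zero hg0) hy'
    have := hind2.map' (LinearMap.mulRight K g⁻¹) hker
    have e : (fun b : Fin (d + 1) => (g * z * g⁻¹) ^ (b : ℕ))
        = (LinearMap.mulRight K g⁻¹) ∘ (fun b : Fin (d + 1) => g * z ^ (b : ℕ)) := by
      funext b
      simp only [Function.comp_apply, LinearMap.mulRight_apply]
      rw [conj_pow_eq _ _ hg0]
    rw [e]
    exact this
  rw [Fintype.linearIndependent_iff] at hind3 ⊢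
  intro a ha i
  have h1 : ∑ j, κ (a j) • (g * z * g⁻¹) ^ (j : ℕ) = 0 := by
    rw [← ha]
    refine Finset.sum_congr rfl fun j _ => ?_
    rw [hκsmul]
  have h2 := hind3 (fun j => κ (a j)) h1 i
  have h3 := hκsmul (a i) 1
  rw [h2, zero_smul] at h3
  have h4 : algebraMap F D (a i) = 0 := by
    simpa [Algebra.smul_def] using h3.symm
  exact (map_eq_zero (algebraMap F D)).mp h4


/-- If all commutators of conjugates of one noncentral `x` with arbitrary elements have degree at
most `d` over the infinite centre `F`, then `[D : F] ≤ (4 d + 1) ^ 2`. -/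
theorem finite_of_commutators_with_conj_degLE [Infinite F] [Algebra.IsCentral F D] (d : ℕ)
    (x : D) (hx : ∃ a : D, a * x ≠ x * a)
    (h : ∀ g y : D, g ≠ 0 → DegLE F d ((g * x * g⁻¹) * y - y * (g * x * g⁻¹))) :
    Module.Finite F D ∧ Module.finrank F D ≤ (4 * d + 1) ^ 2 :=
  finite_of_forall_maximal (4 * d + 1) fun _ _ _ _ hmax hFK v =>
    not_linearIndependent_of_conj_commutators d x hx h hmax hFK v

/-- If `a e a⁻¹ e⁻¹` has degree at most `d` over the infinite central field `F` for all nonzero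
`e`, then so has `a y a⁻¹ - y` for every `y`. -/
lemma degLE_conj_sub_of_commutators [Infinite F] (d : ℕ) (hd : 1 ≤ d) (a y : D) (ha : a ≠ 0)
    (h : ∀ e : D, e ≠ 0 → DegLE F d (a * e * a⁻¹ * e⁻¹)) :
    DegLE F d (a * y * a⁻¹ - y) := by
  by_cases hc : a * y * a⁻¹ - y = 0
  · rw [hc, degLE_iff]
    exact ⟨X, X_ne_zero, by rw [natDegree_X]; exact hd, by simp⟩
  set c := a * y * a⁻¹ - y with hcdef
  have hline : ∀ μ : F, μ ≠ 0 → DegLE F d (μ • (y * c⁻¹) + c⁻¹) := by
    intro μ hμ
    set e : D := y + algebraMap F D μ⁻¹ with he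
    have hcomm : algebraMap F D μ⁻¹ * a = a * algebraMap F D μ⁻¹ := Algebra.commutes _ _
    have e2 : a * algebraMap F D μ⁻¹ * a⁻¹ = algebraMap F D μ⁻¹ := by
      rw [← hcomm, mul_assoc, mul_inv_cancel₀ ha, mul_one]
    have hconj : a * e * a⁻¹ = e + c := by
      rw [he, mul_add, add_mul, e2, hcdef]
      abel
    have he0 : e ≠ 0 := by
      intro h0
      apply hc
      have h1 : a * e * a⁻¹ = 0 := by rw [h0]; simp
      rw [hconj, h0, zero_add] at h1
      exact h1
    have hz := h e he0
    have hz1 : a * e * a⁻¹ * e⁻¹ = c * e⁻¹ + 1 := by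
      rw [hconj, add_mul, mul_inv_cancel₀ he0, add_comm]
    have hz2 : DegLE F d (c * e⁻¹) := by
      have := degLE_smul_add d (a * e * a⁻¹ * e⁻¹) 1 (-1) one_ne_zero hz
      rw [hz1] at this
      simpa using this
    have hz3 : DegLE F d (e * c⁻¹) := by
      have := degLE_inv d (c * e⁻¹) (mul_ne_zero hc (inv_ne_zero he0)) hz2
      rwa [mul_inv_rev, inv_inv] at this
    have hz4 := degLE_smul_add d (e * c⁻¹) μ 0 hμ hz3
    have : μ • (e * c⁻¹) + algebraMap F D 0 = μ • (y * c⁻¹) + c⁻¹ := by
      rw [he, map_zero, add_zero, add_mul, smul_add]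
      congr 1
      rw [Algebra.smul_def, ← mul_assoc, ← map_mul, mul_inv_cancel₀ hμ, map_one, one_mul]
    rwa [this] at hz4
  have hcinv := degLE_of_line d (y * c⁻¹) c⁻¹ hline
  have := degLE_inv d c⁻¹ (inv_ne_zero hc) hcinv
  rwa [inv_inv] at this

/-- **Normal subgroups.** Let `D` be a division ring with infinite centre `F`, `ι : K →+* D` a
subfield and `N` a normal subgroup of the unit group of `D` which is not central. If every
element of `N` satisfies a nonzero left polynomial relation of degree at most `d` over `K`, then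
`[D : F] ≤ (4 d + 1) ^ 2`. -/
theorem finite_of_normal_subgroup_leftAlg [Infinite F] [Algebra.IsCentral F D] {K : Type w}
    [Field K] (ι : K →+* D) (d : ℕ) (N : Subgroup Dˣ) [hN : N.Normal]
    (hnc : ∃ x ∈ N, ∃ a : D, a * (x : D) ≠ (x : D) * a)
    (h : ∀ x ∈ N, ∃ α : Fin (d + 1) → K, α ≠ 0 ∧
      ∑ i, ι (α i) * ((x : Dˣ) : D) ^ (i : ℕ) = 0) :
    Module.Finite F D ∧ Module.finrank F D ≤ (4 * d + 1) ^ 2 := by
  have hdeg : ∀ x ∈ N, DegLE F d ((x : Dˣ) : D) := by
    intro x hx
    apply not_linearIndependent_pow_of_forall_conj ι d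
    intro y hy
    have e : y * (x : D) * y⁻¹ = ((Units.mk0 y hy * x * (Units.mk0 y hy)⁻¹ : Dˣ) : D) := by
      simp
    rw [e]
    exact h _ (hN.conj_mem x hx (Units.mk0 y hy))
  have hd : 1 ≤ d := by
    by_contra hd
    have hd0 : d = 0 := by omega
    subst hd0
    have h1 := hdeg 1 N.one_mem
    apply h1
    have : (fun i : Fin (0 + 1) => (((1 : Dˣ) : D)) ^ (i : ℕ)) = fun _ => (1 : D) := by
      funext i; simp
    rw [this, Fintype.linearIndependent_iff]
    intro g hg i
    have h0 : g 0 = 0 := by simpa using hg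
    have hi : i = 0 := Fin.ext (by have := i.2; simp only [Fin.val_zero]; omega)
    rw [hi]
    exact h0
  have hcomm : ∀ x ∈ N, ∀ y : D, DegLE F d ((x : D) * y - y * (x : D)) := by
    intro x hx y
    have key := degLE_conj_sub_of_commutators d hd (x : D) (y * x) (Units.ne_zero x)
      (fun e he => by
        have e1 : (x : D) * e * (x : D)⁻¹ * e⁻¹
            = ((x * (Units.mk0 e he * x⁻¹ * (Units.mk0 e he)⁻¹) : Dˣ) : D) := by
          simp [mul_assoc]
        rw [e1]
        exact hdeg _ (N.mul_mem hx (hN.conj_mem x⁻¹ (N.inv_mem hx) (Units.mk0 e he))))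
    have e2 : (x : D) * (y * x) * (x : D)⁻¹ - y * x = x * y - y * x := by
      simp [mul_assoc]
    rwa [e2] at key
  obtain ⟨x, hx, hxa⟩ := hnc
  apply finite_of_commutators_with_conj_degLE d (x : D) hxa
  intro g y hg
  have e : g * (x : D) * g⁻¹ = ((Units.mk0 g hg * x * (Units.mk0 g hg)⁻¹ : Dˣ) : D) := by
    simp
  rw [e]
  exact hcomm _ (hN.conj_mem x hx (Units.mk0 g hg)) y

end Vale.Agent.H53.Kurosh
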