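import Vale.Agent.H53.Kurosh.Normal
import Vale.Agent.H7.Kurosh.FiniteCentre

/-!
# Normal subgroups left algebraic of bounded degree: arbitrary centre

The finite-centre case of `finite_of_normal_subgroup_leftAlg`: over a finite centre a noncentral
normal subgroup cannot consist of algebraic elements (`Vale.Agent.H7.exists_mul_commutator_not_algebraic`).
-/

namespace Vale.Agent.H53.Kurosh

open Polynomial

universe u v w

variable {F : Type v} {D : Type u} [Field F] [DivisionRing D] [Algebra F D]

/-- **Normal subgroups, arbitrary centre.** Let `D` be a division ring with centre `F`,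
`ι : K →+* D` a subfield and `N` a normal subgroup of the unit group of `D` which is not central.
If every element of `N` satisfies a nonzero left polynomial relation of degree at most `d` over
`K`, then `[D : F] ≤ (4 d + 1) ^ 2`. -/
theorem finite_of_normal_subgroup_leftAlg_any [Algebra.IsCentral F D] {K : Type w}
    [Field K] (ι : K →+* D) (d : ℕ) (N : Subgroup Dˣ) [hN : N.Normal]
    (hnc : ∃ x ∈ N, ∃ a : D, a * (x : D) ≠ (x : D) * a)
    (h : ∀ x ∈ N, ∃ α : Fin (d + 1) → K, α ≠ 0 ∧
      ∑ i, ι (α i) * ((x : Dˣ) : D) ^ (i : ℕ) = 0) :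
    Module.Finite F D ∧ Module.finrank F D ≤ (4 * d + 1) ^ 2 := by
  rcases finite_or_infinite F with hF | hF
  · exfalso
    have halg : ∀ x ∈ N, IsAlgebraic F ((x : Dˣ) : D) := by
      intro x hx
      have h1 : ¬ LinearIndependent F (fun i : Fin (d + 1) => ((x : Dˣ) : D) ^ (i : ℕ)) := by
        apply not_linearIndependent_pow_of_forall_conj ι d
        intro y hy
        have e : y * (x : D) * y⁻¹ = ((Units.mk0 y hy * x * (Units.mk0 y hy)⁻¹ : Dˣ) : D) := by
          simp
        rw [e]
        exact h _ (hN.conj_mem x hx (Units.mk0 y hy))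
      obtain ⟨p, hp0, -, hp⟩ := (degLE_iff d _).mp h1
      exact ⟨p, hp0, hp⟩
    obtain ⟨x, hx, hxa⟩ := hnc
    obtain ⟨g, hg0, hg⟩ := Vale.Agent.H7.exists_mul_commutator_not_algebraic (F := F) (x : D)
      (halg x hx) hxa
    apply hg
    have e : g * (x : D) ^ (Nat.card F) * g⁻¹ * ((x : D) ^ (Nat.card F))⁻¹
        = ((Units.mk0 g hg0 * x ^ (Nat.card F) * (Units.mk0 g hg0)⁻¹ * (x ^ (Nat.card F))⁻¹ : Dˣ)
            : D) := by
      simp
    rw [e]
    exact halg _ (N.mul_mem (hN.conj_mem _ (N.pow_mem hx _) _) (N.inv_mem (N.pow_mem hx _)))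
  · exact finite_of_normal_subgroup_leftAlg ι d N hnc h

end Vale.Agent.H53.Kurosh
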