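import Vale.Agent.H53.Kurosh.Sided

/-!
# Commutators with respect to a normal subgroup

Let `N` be a noncentral normal subgroup of the unit group of a division ring `D` with centre `F`.
If all commutators `x y x⁻¹ y⁻¹` with `x` in `N` and `y` a unit of `D` have bounded degree over
`F`, or satisfy left (or right) polynomial relations of bounded degree over a subfield `K`, then
`D` is finite-dimensional over `F`.
-/

namespace Vale.Agent.H53.Kurosh

universe u v w

variable {F : Type v} {D : Type u} [Field F] [DivisionRing D] [Algebra F D]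

/-- An element commuting with everything comes from the centre. -/
lemma exists_algebraMap_eq_of_forall_comm [Algebra.IsCentral F D] (z : D)
    (hz : ∀ b : D, b * z = z * b) : ∃ l : F, algebraMap F D l = z := by
  have hx : z ∈ Subalgebra.center F D := by
    rw [Subalgebra.mem_center_iff]
    intro b
    exact hz b
  exact Algebra.mem_bot.mp (Algebra.IsCentral.out hx)

/-- If all commutators `x b x⁻¹ b⁻¹` of a fixed `x` are central, then `x` is central. -/
lemma comm_of_commutators_central (x : D) (hx : x ≠ 0)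
    (h : ∀ b : D, b ≠ 0 → ∃ l : F, algebraMap F D l = x * b * x⁻¹ * b⁻¹) :
    ∀ b : D, b * x = x * b := by
  intro b
  by_contra hb
  have hb0 : b ≠ 0 := by
    rintro rfl
    exact hb (by simp)
  have hb1 : b + 1 ≠ 0 := by
    intro h0
    have : b = -1 := eq_neg_of_add_eq_zero_left h0
    exact hb (by rw [this]; simp)
  obtain ⟨l, hl⟩ := h b hb0
  obtain ⟨m, hm⟩ := h (b + 1) hb1
  have e1 : x * b * x⁻¹ = algebraMap F D l * b := by
    rw [hl, inv_mul_cancel_right₀ hb0]
  have e2 : x * (b + 1) * x⁻¹ = algebraMap F D m * (b + 1) := by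
    rw [hm, inv_mul_cancel_right₀ hb1]
  have e3 : x * (b + 1) * x⁻¹ = x * b * x⁻¹ + 1 := by
    rw [mul_add, add_mul, mul_one, mul_inv_cancel₀ hx]
  have e4 : algebraMap F D (l - m) * b = algebraMap F D (m - 1) := by
    have h5 : algebraMap F D l * b + 1 = algebraMap F D m * b + algebraMap F D m := by
      rw [← e1, ← e3, e2, mul_add, mul_one]
    rw [map_sub, map_sub, map_one, sub_mul]
    have h6 : algebraMap F D l * b = algebraMap F D m * b + algebraMap F D m - 1 :=
      eq_sub_of_add_eq h5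
    rw [h6]
    abel
  by_cases hlm : l = m
  · rw [hlm, sub_self, map_zero, zero_mul] at e4
    have hm1 : m = 1 := by
      have h7 : algebraMap F D (m - 1) = algebraMap F D 0 := by rw [← e4, map_zero]
      exact sub_eq_zero.mp ((algebraMap F D).injective h7)
    rw [hlm, hm1, map_one, one_mul] at e1
    apply hb
    calc b * x = x * b * x⁻¹ * x := by rw [e1]
      _ = x * b := inv_mul_cancel_right₀ hx _
  · have hne : algebraMap F D (l - m) ≠ 0 := by
      rw [Ne, map_eq_zero]
      exact sub_ne_zero.mpr hlm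
    have hb' : b = algebraMap F D ((l - m)⁻¹ * (m - 1)) := by
      rw [map_mul, map_inv₀, ← e4, inv_mul_cancel_left₀ hne]
    apply hb
    rw [hb']
    exact Algebra.commutes _ x

/-- Commutators with respect to a noncentral normal subgroup, of degree at most `d` over the
centre, any centre. -/
theorem finite_of_relative_commutators_degLE_any [Algebra.IsCentral F D] (d : ℕ)
    (N : Subgroup Dˣ) [hN : N.Normal] (hnc : ∃ x ∈ N, ∃ a : D, a * (x : D) ≠ (x : D) * a)
    (hdeg : ∀ x ∈ N, ∀ y : Dˣ, DegLE F d ((x * y * x⁻¹ * y⁻¹ : Dˣ) : D)) :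
    Module.Finite F D ∧ Module.finrank F D ≤ (4 * d + 1) ^ 2 := by
  have hmem : ∀ x ∈ N, ∀ y : Dˣ, x * y * x⁻¹ * y⁻¹ ∈ N := by
    intro x hx y
    have e : x * y * x⁻¹ * y⁻¹ = x * (y * x⁻¹ * y⁻¹) := by group
    rw [e]
    exact N.mul_mem hx (hN.conj_mem _ (N.inv_mem hx) y)
  rcases finite_or_infinite F with hF | hF
  · exfalso
    obtain ⟨x, hx, hxa⟩ := hnc
    have hex : ∃ y : Dˣ, ∃ b : D, b * ((x * y * x⁻¹ * y⁻¹ : Dˣ) : D)
        ≠ ((x * y * x⁻¹ * y⁻¹ : Dˣ) : D) * b := by
      by_contra hall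
      push Not at hall
      obtain ⟨a, ha⟩ := hxa
      apply ha
      apply comm_of_commutators_central (F := F) (x : D) (Units.ne_zero x)
      intro b hb
      obtain ⟨l, hl⟩ := exists_algebraMap_eq_of_forall_comm (F := F) _ (hall (Units.mk0 b hb))
      refine ⟨l, ?_⟩
      rw [hl]
      simp
    obtain ⟨y, hy⟩ := hex
    have hcN : x * y * x⁻¹ * y⁻¹ ∈ N := hmem x hx y
    obtain ⟨g, hg0, hg⟩ := Vale.Agent.H7.exists_mul_commutator_not_algebraic (F := F)
      ((x * y * x⁻¹ * y⁻¹ : Dˣ) : D) (isAlgebraic_of_degLE (hdeg x hx y)) hy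
    apply hg
    have e : g * ((x * y * x⁻¹ * y⁻¹ : Dˣ) : D) ^ (Nat.card F) * g⁻¹
          * (((x * y * x⁻¹ * y⁻¹ : Dˣ) : D) ^ (Nat.card F))⁻¹
        = ((((x * y * x⁻¹ * y⁻¹) ^ (Nat.card F) * Units.mk0 g hg0
            * ((x * y * x⁻¹ * y⁻¹) ^ (Nat.card F))⁻¹ * (Units.mk0 g hg0)⁻¹ : Dˣ) : D))⁻¹ := by
      rw [← Units.val_inv_eq_inv_val]
      have e' : ((x * y * x⁻¹ * y⁻¹) ^ (Nat.card F) * Units.mk0 g hg0
            * ((x * y * x⁻¹ * y⁻¹) ^ (Nat.card F))⁻¹ * (Units.mk0 g hg0)⁻¹)⁻¹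
          = Units.mk0 g hg0 * (x * y * x⁻¹ * y⁻¹) ^ (Nat.card F) * (Units.mk0 g hg0)⁻¹
            * ((x * y * x⁻¹ * y⁻¹) ^ (Nat.card F))⁻¹ := by group
      rw [e']
      simp
    rw [e]
    exact isAlgebraic_of_degLE
      (degLE_inv d _ (Units.ne_zero _) (hdeg _ (N.pow_mem hcN _) (Units.mk0 g hg0)))
  · have hd : 1 ≤ d := one_le_of_degLE_one (by simpa using hdeg 1 N.one_mem 1)
    have hcomm : ∀ x ∈ N, ∀ y : D, DegLE F d ((x : D) * y - y * (x : D)) := by
      intro x hx y
      have key := degLE_conj_sub_of_commutators d hd (x : D) (y * x) (Units.ne_zero x)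
        (fun e he => by
          have e1 : (x : D) * e * (x : D)⁻¹ * e⁻¹
              = ((x * Units.mk0 e he * x⁻¹ * (Units.mk0 e he)⁻¹ : Dˣ) : D) := by
            simp
          rw [e1]
          exact hdeg x hx (Units.mk0 e he))
      have e2 : (x : D) * (y * x) * (x : D)⁻¹ - y * x = x * y - y * x := by
        simp [mul_assoc]
      rwa [e2] at key
    obtain ⟨x, hx, hxa⟩ := hnc
    apply finite_of_commutators_with_conj_degLE d (x : D) hxa
    intro g y hg
    have e : g * (x : D) * g⁻¹ = ((Units.mk0 g hg * x * (Units.mk0 g hg)⁻¹ : Dˣ) : D) := by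
      simp
    rw [e]
    exact hcomm _ (hN.conj_mem x hx (Units.mk0 g hg)) y

/-- **Commutators with respect to a normal subgroup, left or right.** Let `D` be a division ring
with centre `F`, `ι : K →+* D` a subfield and `N` a noncentral normal subgroup of the unit group
of `D`. If all commutators `x y x⁻¹ y⁻¹` with `x` in `N` and `y` a unit satisfy nonzero
polynomial relations of degree at most `d` over `K` with coefficients on the left, or all of them
with coefficients on the right, then `[D : F] ≤ (4 d + 1) ^ 2`. -/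
theorem finite_of_relative_commutators_sided [Algebra.IsCentral F D] {K : Type w} [Field K]
    (ι : K →+* D) (d : ℕ) (N : Subgroup Dˣ) [hN : N.Normal]
    (hnc : ∃ x ∈ N, ∃ a : D, a * (x : D) ≠ (x : D) * a)
    (h : (∀ x ∈ N, ∀ y : Dˣ, ∃ α : Fin (d + 1) → K, α ≠ 0 ∧
            ∑ i : Fin (d + 1), ι (α i) * ((x * y * x⁻¹ * y⁻¹ : Dˣ) : D) ^ (i : ℕ) = 0) ∨
         (∀ x ∈ N, ∀ y : Dˣ, ∃ α : Fin (d + 1) → K, α ≠ 0 ∧
            ∑ i : Fin (d + 1), ((x * y * x⁻¹ * y⁻¹ : Dˣ) : D) ^ (i : ℕ) * ι (α i) = 0)) :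
    Module.Finite F D ∧ Module.finrank F D ≤ (4 * d + 1) ^ 2 := by
  apply finite_of_relative_commutators_degLE_any d N hnc
  intro x hx y
  have e : ∀ (g : D) (hg : g ≠ 0),
      g * ((x * y * x⁻¹ * y⁻¹ : Dˣ) : D) * g⁻¹
        = (((Units.mk0 g hg * x * (Units.mk0 g hg)⁻¹) * (Units.mk0 g hg * y * (Units.mk0 g hg)⁻¹)
            * (Units.mk0 g hg * x * (Units.mk0 g hg)⁻¹)⁻¹
            * (Units.mk0 g hg * y * (Units.mk0 g hg)⁻¹)⁻¹ : Dˣ) : D) := by
    intro g hg
    have e' : (Units.mk0 g hg * x * (Units.mk0 g hg)⁻¹) * (Units.mk0 g hg * y * (Units.mk0 g hg)⁻¹)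
            * (Units.mk0 g hg * x * (Units.mk0 g hg)⁻¹)⁻¹
            * (Units.mk0 g hg * y * (Units.mk0 g hg)⁻¹)⁻¹
        = Units.mk0 g hg * (x * y * x⁻¹ * y⁻¹) * (Units.mk0 g hg)⁻¹ := by group
    rw [e']
    simp
  rcases h with h | h
  · apply not_linearIndependent_pow_of_forall_conj ι d
    intro g hg
    rw [e g hg]
    exact h _ (hN.conj_mem x hx (Units.mk0 g hg)) _
  · apply Vale.Agent.H5.not_linearIndependent_pow_of_forall_conj_right ι d
    intro g hg
    rw [e g hg]
    exact h _ (hN.conj_mem x hx (Units.mk0 g hg)) _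

end Vale.Agent.H53.Kurosh
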