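import Vale.Agent.H53.Kurosh.Central
import Vale.Agent.H5.KuroshRight

/-!
# Left or right algebraic commutators and normal subgroups

Final forms of the finiteness theorems: the polynomial relations over the subfield `K` may have
their coefficients on the left or on the right.
-/

namespace Vale.Agent.H53.Kurosh

universe u v w

variable {F : Type v} {D : Type u} [Field F] [DivisionRing D] [Algebra F D]

lemma conj_mul_commutator (y a b : D) (hy : y ≠ 0) :
    y * (a * b * a⁻¹ * b⁻¹) * y⁻¹
      = (y * a * y⁻¹) * (y * b * y⁻¹) * (y * a * y⁻¹)⁻¹ * (y * b * y⁻¹)⁻¹ := by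
  simp only [mul_inv_rev, inv_inv, mul_assoc, inv_mul_cancel_left₀ hy]

lemma conj_add_commutator (y a b : D) (hy : y ≠ 0) :
    y * (a * b - b * a) * y⁻¹
      = (y * a * y⁻¹) * (y * b * y⁻¹) - (y * b * y⁻¹) * (y * a * y⁻¹) := by
  simp only [mul_assoc, inv_mul_cancel_left₀ hy, mul_sub, sub_mul]

lemma conj_ne_zero {y a : D} (hy : y ≠ 0) (ha : a ≠ 0) : y * a * y⁻¹ ≠ 0 :=
  mul_ne_zero (mul_ne_zero hy ha) (inv_ne_zero hy)

/-- **Commutators, left or right.** Let `D` be a division ring with centre `F` and `ι : K →+* D`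
a subfield. If all multiplicative commutators, or all additive commutators, satisfy nonzero
polynomial relations of degree at most `d` over `K` with coefficients on the left, or all of them
with coefficients on the right, then `[D : F] ≤ d ^ 2`. -/
theorem finite_of_commutators_sided [Algebra.IsCentral F D] {K : Type w} [Field K]
    (ι : K →+* D) (d : ℕ)
    (h : (∀ a b : D, a ≠ 0 → b ≠ 0 → ∃ α : Fin (d + 1) → K, α ≠ 0 ∧
            ∑ i, ι (α i) * (a * b * a⁻¹ * b⁻¹) ^ (i : ℕ) = 0) ∨
         (∀ a b : D, a ≠ 0 → b ≠ 0 → ∃ α : Fin (d + 1) → K, α ≠ 0 ∧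
            ∑ i : Fin (d + 1), (a * b * a⁻¹ * b⁻¹) ^ (i : ℕ) * ι (α i) = 0) ∨
         (∀ a b : D, ∃ α : Fin (d + 1) → K, α ≠ 0 ∧
            ∑ i, ι (α i) * (a * b - b * a) ^ (i : ℕ) = 0) ∨
         (∀ a b : D, ∃ α : Fin (d + 1) → K, α ≠ 0 ∧
            ∑ i : Fin (d + 1), (a * b - b * a) ^ (i : ℕ) * ι (α i) = 0)) :
    Module.Finite F D ∧ Module.finrank F D ≤ d ^ 2 := by
  rcases h with h | h | h | h
  · apply finite_of_mul_commutators_degLE_any
    intro a b ha hb
    apply not_linearIndependent_pow_of_forall_conj ι d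
    intro y hy
    rw [conj_mul_commutator y a b hy]
    exact h _ _ (conj_ne_zero hy ha) (conj_ne_zero hy hb)
  · apply finite_of_mul_commutators_degLE_any
    intro a b ha hb
    apply Vale.Agent.H5.not_linearIndependent_pow_of_forall_conj_right ι d
    intro y hy
    rw [conj_mul_commutator y a b hy]
    exact h _ _ (conj_ne_zero hy ha) (conj_ne_zero hy hb)
  · apply finite_of_add_commutators_degLE_any
    intro a b
    apply not_linearIndependent_pow_of_forall_conj ι d
    intro y hy
    rw [conj_add_commutator y a b hy]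
    exact h _ _
  · apply finite_of_add_commutators_degLE_any
    intro a b
    apply Vale.Agent.H5.not_linearIndependent_pow_of_forall_conj_right ι d
    intro y hy
    rw [conj_add_commutator y a b hy]
    exact h _ _

/-- **Normal subgroups, left or right.** Let `D` be a division ring with centre `F`,
`ι : K →+* D` a subfield and `N` a noncentral normal subgroup of the unit group of `D`. If all
elements of `N` satisfy nonzero polynomial relations of degree at most `d` over `K` with
coefficients on the left, or all of them with coefficients on the right, then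
`[D : F] ≤ (4 d + 1) ^ 2`. -/
theorem finite_of_normal_subgroup_sided [Algebra.IsCentral F D] {K : Type w} [Field K]
    (ι : K →+* D) (d : ℕ) (N : Subgroup Dˣ) [hN : N.Normal]
    (hnc : ∃ x ∈ N, ∃ a : D, a * (x : D) ≠ (x : D) * a)
    (h : (∀ x ∈ N, ∃ α : Fin (d + 1) → K, α ≠ 0 ∧
            ∑ i, ι (α i) * ((x : Dˣ) : D) ^ (i : ℕ) = 0) ∨
         (∀ x ∈ N, ∃ α : Fin (d + 1) → K, α ≠ 0 ∧
            ∑ i : Fin (d + 1), ((x : Dˣ) : D) ^ (i : ℕ) * ι (α i) = 0)) :
    Module.Finite F D ∧ Module.finrank F D ≤ (4 * d + 1) ^ 2 := by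
  apply finite_of_normal_subgroup_degLE_any d N hnc
  intro x hx
  have e : ∀ (y : D) (hy : y ≠ 0),
      y * (x : D) * y⁻¹ = ((Units.mk0 y hy * x * (Units.mk0 y hy)⁻¹ : Dˣ) : D) := by
    intro y hy
    simp
  rcases h with h | h
  · apply not_linearIndependent_pow_of_forall_conj ι d
    intro y hy
    rw [e y hy]
    exact h _ (hN.conj_mem x hx (Units.mk0 y hy))
  · apply Vale.Agent.H5.not_linearIndependent_pow_of_forall_conj_right ι d
    intro y hy
    rw [e y hy]
    exact h _ (hN.conj_mem x hx (Units.mk0 y hy))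

end Vale.Agent.H53.Kurosh
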