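import Mathlib

/-!
# Finitely generated torsion solvable groups are finite
-/

namespace Vale.Agent.H53.Kurosh

universe u

open scoped commutatorElement

lemma subsingleton_of_top_eq_bot (Q : Type u) [Group Q] (h : (⊤ : Subgroup Q) = ⊥) :
    Subsingleton Q := by
  constructor
  intro a b
  have ha : a ∈ (⊤ : Subgroup Q) := Subgroup.mem_top a
  have hb : b ∈ (⊤ : Subgroup Q) := Subgroup.mem_top b
  rw [h, Subgroup.mem_bot] at ha hb
  rw [ha, hb]

lemma map_mk_self_eq_bot {Q : Type u} [Group Q] (A : Subgroup Q) [A.Normal] :
    A.map (QuotientGroup.mk' A) = ⊥ := by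
  rw [eq_bot_iff]
  rintro _ ⟨a, ha, rfl⟩
  rw [Subgroup.mem_bot]
  exact (QuotientGroup.eq_one_iff a).mpr ha

lemma finite_of_finite_subgroup_of_finite_quotient {Q : Type u} [Group Q] (A : Subgroup Q)
    (h1 : Finite A) (h2 : Finite (Q ⧸ A)) : Finite Q := by
  have : A.FiniteIndex := Subgroup.finiteIndex_of_finite_quotient
  apply Nat.finite_of_card_ne_zero
  rw [← Subgroup.card_mul_index A]
  exact mul_ne_zero Nat.card_pos.ne' Subgroup.FiniteIndex.index_ne_zero

theorem finite_of_torsion_of_derivedSeries (d : ℕ) :
    ∀ (Q : Type u) [Group Q] [Group.FG Q], (∀ q : Q, ∃ k : ℕ, 0 < k ∧ q ^ k = 1) →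
      derivedSeries Q d = ⊥ → Finite Q := by
  induction d with
  | zero =>
    intro Q _ _ _ h
    rw [derivedSeries_zero] at h
    have := subsingleton_of_top_eq_bot Q h
    exact Finite.of_subsingleton
  | succ d ih =>
    intro Q _ _ htors h
    have hnormal : (derivedSeries Q d).Normal := derivedSeries_normal Q d
    have hfinQA : Finite (Q ⧸ derivedSeries Q d) := by
      apply ih (Q ⧸ derivedSeries Q d)
      · intro q
        induction q using QuotientGroup.induction_on with
        | H x =>
          obtain ⟨k, hk, hx⟩ := htors x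
          refine ⟨k, hk, ?_⟩
          rw [← QuotientGroup.mk_pow, hx]
          rfl
      · rw [← map_derivedSeries_eq (f := QuotientGroup.mk' (derivedSeries Q d))
          (QuotientGroup.mk'_surjective _) d]
        exact map_mk_self_eq_bot _
    have hfi : (derivedSeries Q d).FiniteIndex := Subgroup.finiteIndex_of_finite_quotient
    have hfg : Group.FG (derivedSeries Q d) := Subgroup.fg_of_index_ne_zero _
    have hcomm : ∀ x y : derivedSeries Q d, x * y = y * x := by
      intro x y
      have h1 : ⁅(x : Q), (y : Q)⁆ ∈ ⁅derivedSeries Q d, derivedSeries Q d⁆ :=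
        Subgroup.commutator_mem_commutator x.2 y.2
      rw [← derivedSeries_succ, h, Subgroup.mem_bot, commutatorElement_eq_one_iff_mul_comm] at h1
      exact Subtype.ext h1
    let _ : CommGroup (derivedSeries Q d) :=
      { (inferInstance : Group (derivedSeries Q d)) with mul_comm := hcomm }
    have hfinA : Finite (derivedSeries Q d) := by
      apply CommGroup.finite_of_fg_isMulTorsion
      intro x
      obtain ⟨k, hk, hx⟩ := htors (x : Q)
      rw [isOfFinOrder_iff_pow_eq_one]
      exact ⟨k, hk, Subtype.ext (by simpa using hx)⟩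
    exact finite_of_finite_subgroup_of_finite_quotient _ hfinA hfinQA

end Vale.Agent.H53.Kurosh
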