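import Vale.Agent.H53.Kurosh.Core
import Vale.Agent.H53.Kurosh.Torsion

/-!
# Kurosh's problem for division rings: solvable groups of units
-/

namespace Vale.Agent.H53.Kurosh

universe u v

open scoped commutatorElement

variable {F : Type v} {D : Type u} [Field F] [DivisionRing D] [Algebra F D]

/-- `Good F D Q`: whenever a finitely generated group `Γ` maps to `Q` and to `Dˣ` in such a way
that the kernel of the map to `Q` is sent to elements commuting with the image of `Γ`, the image
of `Γ` in `Dˣ` generates a finite-dimensional `F`-subalgebra of `D`. -/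
def Good (F : Type v) (D : Type u) [Field F] [DivisionRing D] [Algebra F D]
    (Q : Type u) [Group Q] : Prop :=
  ∀ (Γ : Type u) [Group Γ] [Group.FG Γ] (α : Γ →* Q) (ρ : Γ →* Dˣ),
    (∀ x ∈ α.ker, ∀ y : Γ, Commute (ρ x) (ρ y)) → FDrep F ρ

variable [Algebra.IsAlgebraic F D]

lemma FD_closure_image_of_comm {Γ : Type u} [Group Γ] (ρ : Γ →* Dˣ) (S : Finset Γ)
    (h : ∀ s ∈ S, ∀ t ∈ S, ∀ y : Γ, Commute (ρ ⁅s, t⁆) (ρ y)) :
    FD F ((Subgroup.closure (ρ '' (S : Set Γ)) : Subgroup Dˣ) : Set Dˣ) := by
  classical
  have h1 := FD_closure_of_class_two (F := F) (S.image ρ) (by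
    intro s hs t ht r hr
    rw [Finset.mem_image] at hs ht hr
    obtain ⟨s, hs, rfl⟩ := hs
    obtain ⟨t, ht, rfl⟩ := ht
    obtain ⟨r, hr, rfl⟩ := hr
    have := h s hs t ht r
    simpa [commutatorElement_def] using this)
  simpa using h1

theorem good_of_comm (Q : Type u) [Group Q] (hQ : ∀ a b : Q, a * b = b * a) : Good F D Q := by
  intro Γ _ hfg α ρ hker
  obtain ⟨S, hS⟩ := Group.fg_def.mp hfg
  have h1 := FD_closure_image_of_comm (F := F) ρ S (fun s _ t _ y => hker _ (by
    rw [MonoidHom.mem_ker, map_commutatorElement, commutatorElement_eq_one_iff_mul_comm]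
    exact hQ _ _) y)
  unfold FDrep
  have h2 : ρ.range = Subgroup.closure (ρ '' (S : Set Γ)) := by
    rw [← MonoidHom.map_closure, hS, ← MonoidHom.range_eq_map]
  rw [h2]
  exact h1

theorem good_of_derivedSeries (d : ℕ) :
    ∀ (Q : Type u) [Group Q], derivedSeries Q d = ⊥ → Good F D Q := by
  induction d with
  | zero =>
    intro Q _ h
    rw [derivedSeries_zero] at h
    have := subsingleton_of_top_eq_bot Q h
    exact good_of_comm Q (fun a b => Subsingleton.elim _ _)
  | succ d ih =>
    intro Q _ h Γ _ _ α ρ hker
    have hA : (derivedSeries Q d).Normal := derivedSeries_normal Q d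
    have hN : ((derivedSeries Q d).comap α).Normal := inferInstance
    refine core_step ρ ((derivedSeries Q d).comap α) ?_ ?_ ?_
    · intro S hS
      apply FD_closure_image_of_comm
      intro s hs t ht y
      apply hker
      rw [MonoidHom.mem_ker, map_commutatorElement]
      have h1 : ⁅α s, α t⁆ ∈ ⁅derivedSeries Q d, derivedSeries Q d⁆ :=
        Subgroup.commutator_mem_commutator (hS hs) (hS ht)
      rw [← derivedSeries_succ, h, Subgroup.mem_bot] at h1
      exact h1
    · intro H _ hNH htors
      have : Finite (Γ ⧸ H) := by
        apply finite_of_torsion_of_derivedSeries d (Γ ⧸ H)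
        · intro q
          induction q using QuotientGroup.induction_on with
          | H x =>
            obtain ⟨k, hk, hx⟩ := htors x
            refine ⟨k, hk, ?_⟩
            rw [← QuotientGroup.mk_pow]
            exact (QuotientGroup.eq_one_iff _).mpr hx
        · rw [← map_derivedSeries_eq (f := QuotientGroup.mk' H) (QuotientGroup.mk'_surjective _) d,
            eq_bot_iff]
          rintro _ ⟨x, hx, rfl⟩
          rw [Subgroup.mem_bot]
          apply (QuotientGroup.eq_one_iff _).mpr
          apply hNH
          rw [Subgroup.mem_comap]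
          exact map_derivedSeries_le_derivedSeries α d (Subgroup.mem_map_of_mem α hx)
      exact Subgroup.finiteIndex_of_finite_quotient
    · intro Γ' _ _ α' ρ' hker'
      have hinj : Function.Injective
          (QuotientGroup.map ((derivedSeries Q d).comap α) (derivedSeries Q d) α (le_refl _)) := by
        rw [injective_iff_map_eq_one]
        intro q hq
        induction q using QuotientGroup.induction_on with
        | H x =>
          rw [QuotientGroup.map_mk] at hq
          have h2 : α x ∈ derivedSeries Q d := (QuotientGroup.eq_one_iff _).mp hq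
          exact (QuotientGroup.eq_one_iff _).mpr (Subgroup.mem_comap.mpr h2)
      have hQA : derivedSeries (Q ⧸ derivedSeries Q d) d = ⊥ := by
        rw [← map_derivedSeries_eq (f := QuotientGroup.mk' (derivedSeries Q d))
          (QuotientGroup.mk'_surjective _) d]
        exact map_mk_self_eq_bot _
      refine ih (Q ⧸ derivedSeries Q d) hQA Γ'
        ((QuotientGroup.map ((derivedSeries Q d).comap α) (derivedSeries Q d) α (le_refl _)).comp α')
        ρ' ?_
      intro x hx y
      apply hker' x _ y
      rw [MonoidHom.mem_ker] at hx ⊢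
      apply hinj
      rw [map_one]
      exact hx

/-- **Kurosh's problem for solvable groups of units.** If `D` is a division ring algebraic over
a central subfield `F`, then every finitely generated solvable subgroup of `Dˣ` generates a
finite-dimensional `F`-subalgebra. -/
theorem FD_of_isSolvable (S : Finset Dˣ)
    (hS : Group.IsSolvable (Subgroup.closure (S : Set Dˣ))) :
    FD F ((Subgroup.closure (S : Set Dˣ) : Subgroup Dˣ) : Set Dˣ) := by
  obtain ⟨d, hd⟩ := (Group.isSolvable_def _).mp hS
  have hgood : Good F D (Subgroup.closure (S : Set Dˣ)) := good_of_derivedSeries d _ hd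
  have h1 := hgood (Subgroup.closure (S : Set Dˣ)) (MonoidHom.id _)
    (Subgroup.closure (S : Set Dˣ)).subtype (by
      intro x hx y
      rw [MonoidHom.mem_ker, MonoidHom.id_apply] at hx
      rw [hx, map_one]
      exact Commute.one_left _)
  unfold FDrep at h1
  rwa [Subgroup.range_subtype] at h1

end Vale.Agent.H53.Kurosh
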